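import Vale.Agent.P181.T3.Kernel3
import Vale.Agent.P181.Q.Extend

/-!
P181, power map theorem, one scale: labelling of the boxes by pieces of arbitrary sizes in which
any two pieces of two rows share nearly the expected number of columns.
-/

set_option autoImplicit false

namespace Vale.Agent.P181.H626

open Finset Vale.Agent.P181.H179 Vale.Agent.P181.Q

/-- `z^(number of occurrences of the pattern (k, k') on S)`. -/
noncomputable def hz (z : ℝ) {w Q N : ℕ} [NeZero Q] (φ ψ : Fin N → Fin w × Fin Q)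
    (S : Finset (Fin N)) (k k' : Fin Q) (γ γ' : Fin w → Fin Q) : ℝ :=
  ∏ t ∈ S, (if lb φ γ t = k ∧ lb ψ γ' t = k' then z else 1)

lemma hz_eq (z : ℝ) {w Q N : ℕ} [NeZero Q] (φ ψ : Fin N → Fin w × Fin Q) (S : Finset (Fin N))
    (k k' : Fin Q) (γ γ' : Fin w → Fin Q) : hz z φ ψ S k k' γ γ' =
      z ^ (S.filter (fun t => lb φ γ t = k ∧ lb ψ γ' t = k')).card := by
  rw [hz, ← Finset.prod_filter, Finset.prod_const]

lemma hz_sum {z : ℝ} (hz0 : 0 ≤ z) (hz1 : z ≤ 1) {a w Q N : ℕ} [NeZero Q]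
    (φ : Fin a → Fin N → Fin w × Fin Q)
    (S : Finset (Fin N)) {i j : Fin a} (hij : i ≠ j) (hi : Set.InjOn (φ i) S)
    (hj : Set.InjOn (φ j) S) (k k' : Fin Q) :
    ∑ ω : Fin a → (Fin w → Fin Q), hz z (φ i) (φ j) S k k' (ω i) (ω j) ≤
      Fintype.card (Fin a → (Fin w → Fin Q)) * (1 - (1 - z) / (Q : ℝ) ^ 2) ^ S.card := by
  classical
  have hq : (1 : ℝ) ≤ Q := by
    exact_mod_cast Nat.one_le_iff_ne_zero.2 (NeZero.ne Q)
  have hq0 : (0 : ℝ) < Q := by linarith
  have hqi : (1 - z) / (Q : ℝ) ≤ 1 := by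
    rw [div_le_one hq0]
    linarith
  have hqi0 : 0 ≤ (1 - z) / (Q : ℝ) := div_nonneg (by linarith) hq0.le
  have hcardΓ : (Fintype.card (Fin w → Fin Q) : ℝ) = (Q : ℝ) ^ w := by
    simp
  have hpos : (0 : ℝ) < (Q : ℝ) ^ w := by positivity
  set x : ℝ := 1 - (1 - z) / Q with hx
  let h : (Fin w → Fin Q) → ℝ := fun γ' =>
    ∏ t ∈ S, (if lb (φ j) γ' t = k' then x else 1)
  -- the inner sum
  have h1 : ∀ γ', ∑ γ, hz z (φ i) (φ j) S k k' γ γ' ≤ (Q : ℝ) ^ w * h γ' := by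
    intro γ'
    have h2 := row_sum' hz0 hz1 k (φ i)
      (S.filter (fun t => lb (φ j) γ' t = k')) (hi.mono (by
        intro t ht
        exact (Finset.mem_filter.1 ht).1))
    have h3 : h γ' = (1 - (1 - z) / (Q : ℝ)) ^
        (S.filter (fun t => lb (φ j) γ' t = k')).card := by
      simp only [h]
      rw [← Finset.prod_filter, Finset.prod_const, hx]
    rw [h3]
    refine le_trans (le_of_eq ?_) h2
    apply Finset.sum_congr rfl
    intro γ _
    rw [hz, Finset.prod_filter]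
    apply Finset.prod_congr rfl
    intro t _
    by_cases h4 : lb (φ j) γ' t = k'
    · simp [h4]
    · simp [h4]
  have h2 : ∑ γ', h γ' ≤ (Q : ℝ) ^ w * (1 - (1 - z) / (Q : ℝ) ^ 2) ^ S.card := by
    have h3 := row_sum' (x := x) (by rw [hx]; linarith) (by rw [hx]; linarith) k' (φ j) S hj
    have h4 : 1 - (1 - x) / Q = 1 - (1 - z) / (Q : ℝ) ^ 2 := by
      rw [hx]
      field_simp
      ring
    rw [h4] at h3
    exact h3
  have h3 := sum_update i (fun ω : Fin a → (Fin w → Fin Q) =>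
    hz z (φ i) (φ j) S k k' (ω i) (ω j))
  have h4 := sum_update j (fun ω : Fin a → (Fin w → Fin Q) => h (ω j))
  simp only [Function.update_self, Function.update_of_ne hij.symm] at h3 h4
  rw [hcardΓ] at h3 h4
  have h5 : (Q : ℝ) ^ w * ∑ ω : Fin a → (Fin w → Fin Q),
      hz z (φ i) (φ j) S k k' (ω i) (ω j) ≤
        (Q : ℝ) ^ w * ∑ ω : Fin a → (Fin w → Fin Q), h (ω j) := by
    rw [← h3, Finset.mul_sum]
    exact Finset.sum_le_sum (fun ω _ => h1 (ω j))
  have h6 : (Q : ℝ) ^ w * ∑ ω : Fin a → (Fin w → Fin Q), h (ω j) ≤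
      (Q : ℝ) ^ w * (Fintype.card (Fin a → (Fin w → Fin Q)) *
        (1 - (1 - z) / (Q : ℝ) ^ 2) ^ S.card) := by
    rw [← h4]
    refine (Finset.sum_le_sum (fun ω _ => h2)).trans (le_of_eq ?_)
    rw [Finset.sum_const, Finset.card_univ, nsmul_eq_mul]
    ring
  exact le_of_mul_le_mul_left (h5.trans h6) hpos

lemma one_sub_ge_exp {δ : ℝ} (h0 : 0 ≤ δ) (h1 : δ ≤ 1 / 2) :
    Real.exp (-(δ + δ ^ 2)) ≤ 1 - δ := by
  have h2 := Real.quadratic_le_exp_of_nonneg (x := δ + δ ^ 2) (by positivity)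
  have h3 : 0 < Real.exp (δ + δ ^ 2) := Real.exp_pos _
  have h4 : 1 ≤ (1 - δ) * (1 + (δ + δ ^ 2) + (δ + δ ^ 2) ^ 2 / 2) := by
    have h5 : (1 - δ) * (1 + (δ + δ ^ 2) + (δ + δ ^ 2) ^ 2 / 2) - 1 =
        δ ^ 2 * (1 - δ - δ ^ 2 - δ ^ 3) / 2 := by ring
    have h6 : δ ^ 2 ≤ 1 / 4 := by nlinarith
    have h7 : δ ^ 3 ≤ 1 / 8 := by
      have : δ ^ 3 = δ * δ ^ 2 := by ring
      rw [this]
      nlinarith
    have h8 : 0 ≤ δ ^ 2 * (1 - δ - δ ^ 2 - δ ^ 3) := mul_nonneg (by positivity) (by linarith)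
    linarith
  have h5 : 1 ≤ (1 - δ) * Real.exp (δ + δ ^ 2) :=
    h4.trans (mul_le_mul_of_nonneg_left h2 (by linarith))
  rw [Real.exp_neg, inv_eq_one_div, div_le_iff₀ h3]
  exact h5

/-- Random block shifts, one-sided large deviations for every pair of rows. -/
theorem kernelK {a N Q w b D0 : ℕ} (C : Fin a → Finset (Fin N)) (hQ : 1 ≤ Q) (hw : 1 ≤ w)
    (hC : ∀ i, (C i).card = Q * w) (hb : Q * w ≤ b)
    (hnum : (a : ℝ) ^ 2 * (Q : ℝ) ^ 2 < Real.exp ((D0 : ℝ) ^ 2 / (4 * b * (Q : ℝ) ^ 2))) :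
    ∃ lab : Fin a → Fin N → Fin Q,
      (∀ i k, ((C i).filter (fun t => lab i t = k)).card = w) ∧
      ∀ i j, i ≠ j → ∀ k k', (C i ∩ C j).card ≤
        Q ^ 2 * ((C i ∩ C j).filter (fun t => lab i t = k ∧ lab j t = k')).card + D0 := by
  classical
  haveI : NeZero Q := ⟨by omega⟩
  have hQR : (1 : ℝ) ≤ Q := by exact_mod_cast hQ
  have hQ2 : (1 : ℝ) ≤ (Q : ℝ) ^ 2 := one_le_pow₀ hQR
  have hb1 : 1 ≤ b := le_trans (Nat.mul_pos hQ hw) hb
  have hbR : (1 : ℝ) ≤ b := by exact_mod_cast hb1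
  let z0 : Fin w × Fin Q := (⟨0, by omega⟩, ⟨0, by omega⟩)
  have hE : ∀ i, Nonempty ({t // t ∈ C i} ≃ Fin w × Fin Q) := by
    intro i
    refine ⟨Fintype.equivOfCardEq ?_⟩
    rw [Fintype.card_coe, hC, Fintype.card_prod, Fintype.card_fin, Fintype.card_fin, mul_comm]
  let E : ∀ i, {t // t ∈ C i} ≃ Fin w × Fin Q := fun i => (hE i).some
  let φ : Fin a → Fin N → Fin w × Fin Q := fun i t => if h : t ∈ C i then E i ⟨t, h⟩ else z0
  have hφ : ∀ i t (h : t ∈ C i), φ i t = E i ⟨t, h⟩ := fun i t h => dif_pos h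
  have hinj : ∀ i, Set.InjOn (φ i) (C i) := by
    intro i s hs t ht hst
    have hs' : s ∈ C i := hs
    have ht' : t ∈ C i := ht
    rw [hφ i s hs', hφ i t ht'] at hst
    exact congrArg Subtype.val ((E i).injective hst)
  -- sizes
  have hsize : ∀ (γ : Fin w → Fin Q) i k,
      ((C i).filter (fun t => lb (φ i) γ t = k)).card = w := by
    intro γ i k
    have h1 : ((C i).filter (fun t => lb (φ i) γ t = k)).card =
        (univ.filter (fun r : Fin w × Fin Q => r.2 + γ r.1 = k)).card := by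
      apply Finset.card_bij (fun t _ => φ i t)
      · intro t ht
        rw [Finset.mem_filter] at ht ⊢
        exact ⟨Finset.mem_univ _, ht.2⟩
      · intro s hs t ht hst
        rw [Finset.mem_filter] at hs ht
        exact hinj i hs.1 ht.1 hst
      · intro r hr
        rw [Finset.mem_filter] at hr
        refine ⟨((E i).symm r : Fin N), ?_, ?_⟩
        · rw [Finset.mem_filter]
          refine ⟨((E i).symm r).2, ?_⟩
          rw [lb, hφ i _ ((E i).symm r).2]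
          simp only [Subtype.coe_eta, Equiv.apply_symm_apply]
          exact hr.2
        · rw [hφ i _ ((E i).symm r).2]
          simp only [Subtype.coe_eta, Equiv.apply_symm_apply]
    rw [h1, Finset.card_filter, Fintype.sum_prod_type]
    have h2 : ∀ β : Fin w, ∑ p : Fin Q, (if p + γ β = k then 1 else 0) = 1 := by
      intro β
      rw [Finset.sum_eq_single (k - γ β)]
      · rw [sub_add_cancel, if_pos rfl]
      · intro p _ hp
        rw [if_neg]
        intro h'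
        exact hp (by rw [← h', add_sub_cancel_right])
      · intro h
        exact absurd (Finset.mem_univ _) h
    simp only [h2, Finset.sum_const, Finset.card_univ, Fintype.card_fin, smul_eq_mul, mul_one]
  by_cases hDb : b < D0
  · refine ⟨fun i t => lb (φ i) (fun _ => ⟨0, by omega⟩) t, fun i k => hsize _ i k, ?_⟩
    intro i j _ k k'
    have h1 : (C i ∩ C j).card ≤ (C i).card := Finset.card_le_card Finset.inter_subset_left
    rw [hC] at h1
    omega
  have hD1 : (D0 : ℝ) ≤ b := by exact_mod_cast not_lt.1 hDb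
  have hD0 : (0 : ℝ) ≤ D0 := Nat.cast_nonneg _
  obtain ⟨δ, hδ⟩ : ∃ δ : ℝ, δ = D0 / (2 * b) := ⟨_, rfl⟩
  have hδ0 : 0 ≤ δ := by
    rw [hδ]
    positivity
  have hδ1 : δ ≤ 1 / 2 := by
    rw [hδ, div_le_iff₀ (by linarith)]
    linarith
  let T : Finset ((Fin a × Fin a) × (Fin Q × Fin Q)) := univ.filter (fun p => p.1.1 ≠ p.1.2)
  let f : (Fin a × Fin a) × (Fin Q × Fin Q) → (Fin a → (Fin w → Fin Q)) → ℝ :=
    fun p ω => Real.exp ((δ + δ ^ 2) * (((C p.1.1 ∩ C p.1.2).card - D0) / (Q : ℝ) ^ 2)) *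
      hz (1 - δ) (φ p.1.1) (φ p.1.2) (C p.1.1 ∩ C p.1.2) p.2.1 p.2.2 (ω p.1.1) (ω p.1.2)
  obtain ⟨ω, hω⟩ := union_bound T f (Real.exp (-((D0 : ℝ) ^ 2 / (4 * b * (Q : ℝ) ^ 2)))) (by
      intro p _ ω
      apply mul_nonneg (Real.exp_nonneg _)
      apply Finset.prod_nonneg
      intro t _
      split_ifs
      · linarith
      · exact zero_le_one) (by
      intro p hp
      have hne : p.1.1 ≠ p.1.2 := (Finset.mem_filter.1 hp).2
      have h1 := hz_sum (z := 1 - δ) (by linarith) (by linarith) φ (C p.1.1 ∩ C p.1.2) hne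
        ((hinj p.1.1).mono (by
        intro t ht
        exact (Finset.mem_inter.1 ht).1)) ((hinj p.1.2).mono (by
        intro t ht
        exact (Finset.mem_inter.1 ht).2)) p.2.1 p.2.2
      obtain ⟨m, hm⟩ : ∃ m, m = (C p.1.1 ∩ C p.1.2).card := ⟨_, rfl⟩
      have hmb : (m : ℝ) ≤ b := by
        have h2 : (C p.1.1 ∩ C p.1.2).card ≤ (C p.1.1).card :=
          Finset.card_le_card Finset.inter_subset_left
        rw [hC] at h2
        exact_mod_cast (by omega : m ≤ b)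
      have h2 : (1 - (1 - (1 - δ)) / (Q : ℝ) ^ 2) ^ m ≤ Real.exp (-(δ / (Q : ℝ) ^ 2 * m)) := by
        have h3 : 1 - (1 - (1 - δ)) / (Q : ℝ) ^ 2 ≤ Real.exp (-(δ / (Q : ℝ) ^ 2)) := by
          have := Real.add_one_le_exp (-(δ / (Q : ℝ) ^ 2))
          have h4 : 1 - (1 - (1 - δ)) / (Q : ℝ) ^ 2 = -(δ / (Q : ℝ) ^ 2) + 1 := by ring
          rw [h4]
          exact this
        have h5 : 0 ≤ 1 - (1 - (1 - δ)) / (Q : ℝ) ^ 2 := by
          have h6 : (1 - (1 - δ)) / (Q : ℝ) ^ 2 ≤ 1 := by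
            rw [div_le_one (by linarith)]
            linarith
          linarith
        calc (1 - (1 - (1 - δ)) / (Q : ℝ) ^ 2) ^ m ≤ Real.exp (-(δ / (Q : ℝ) ^ 2)) ^ m :=
              pow_le_pow_left₀ h5 h3 m
          _ = Real.exp (-(δ / (Q : ℝ) ^ 2 * m)) := by
              rw [← Real.exp_nat_mul]
              congr 1
              ring
      have h3 : (0 : ℝ) ≤ Fintype.card (Fin a → (Fin w → Fin Q)) := Nat.cast_nonneg _
      have h4 : Real.exp ((δ + δ ^ 2) * (((m : ℝ) - D0) / (Q : ℝ) ^ 2)) *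
          Real.exp (-(δ / (Q : ℝ) ^ 2 * m)) ≤
          Real.exp (-((D0 : ℝ) ^ 2 / (4 * b * (Q : ℝ) ^ 2))) := by
        rw [← Real.exp_add, Real.exp_le_exp]
        have h5 : (δ + δ ^ 2) * (((m : ℝ) - D0) / (Q : ℝ) ^ 2) + -(δ / (Q : ℝ) ^ 2 * m) =
            (δ ^ 2 * m - (δ + δ ^ 2) * D0) / (Q : ℝ) ^ 2 := by
          field_simp
          ring
        have h6 : -((D0 : ℝ) ^ 2 / (4 * b * (Q : ℝ) ^ 2)) =
            (δ ^ 2 * b - δ * D0) / (Q : ℝ) ^ 2 := by
          rw [hδ]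
          field_simp
          ring
        rw [h5, h6]
        apply div_le_div_of_nonneg_right _ (by linarith)
        have h7 : δ ^ 2 * m ≤ δ ^ 2 * b := mul_le_mul_of_nonneg_left hmb (by positivity)
        have h8 : 0 ≤ δ ^ 2 * D0 := by positivity
        linarith
      calc ∑ ω, f p ω = Real.exp ((δ + δ ^ 2) * (((m : ℝ) - D0) / (Q : ℝ) ^ 2)) *
            ∑ ω : Fin a → (Fin w → Fin Q),
            hz (1 - δ) (φ p.1.1) (φ p.1.2) (C p.1.1 ∩ C p.1.2) p.2.1 p.2.2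
              (ω p.1.1) (ω p.1.2) := by
            rw [Finset.mul_sum, hm]
        _ ≤ Real.exp ((δ + δ ^ 2) * (((m : ℝ) - D0) / (Q : ℝ) ^ 2)) *
            (Fintype.card (Fin a → (Fin w → Fin Q)) * Real.exp (-(δ / (Q : ℝ) ^ 2 * m))) := by
            refine mul_le_mul_of_nonneg_left (h1.trans ?_) (Real.exp_nonneg _)
            refine mul_le_mul_of_nonneg_left ?_ h3
            rw [← hm]
            exact h2
        _ = Fintype.card (Fin a → (Fin w → Fin Q)) *
            (Real.exp ((δ + δ ^ 2) * (((m : ℝ) - D0) / (Q : ℝ) ^ 2)) *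
              Real.exp (-(δ / (Q : ℝ) ^ 2 * m))) := by ring
        _ ≤ _ := mul_le_mul_of_nonneg_left h4 h3) (by
      have h1 : (T.card : ℝ) ≤ (a : ℝ) ^ 2 * (Q : ℝ) ^ 2 := by
        have h2 : T.card ≤ Fintype.card ((Fin a × Fin a) × (Fin Q × Fin Q)) :=
          Finset.card_le_univ _
        rw [Fintype.card_prod, Fintype.card_prod, Fintype.card_prod, Fintype.card_fin,
          Fintype.card_fin] at h2
        calc (T.card : ℝ) ≤ ((a * a * (Q * Q) : ℕ) : ℝ) := by exact_mod_cast h2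
          _ = _ := by
            push_cast
            ring
      have h2 : 0 < Real.exp ((D0 : ℝ) ^ 2 / (4 * b * (Q : ℝ) ^ 2)) := Real.exp_pos _
      rw [Real.exp_neg, ← div_eq_mul_inv, div_lt_one h2]
      exact lt_of_le_of_lt h1 hnum)
  refine ⟨fun i t => lb (φ i) (ω i) t, fun i k => hsize (ω i) i k, ?_⟩
  intro i j hij k k'
  by_contra hno
  push Not at hno
  have h2 := hω ((i, j), (k, k')) (Finset.mem_filter.2 ⟨Finset.mem_univ _, hij⟩)
  have h3 : (1 : ℝ) ≤ f ((i, j), (k, k')) ω := by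
    simp only [f]
    rw [hz_eq]
    obtain ⟨Z, hZ⟩ : ∃ Z, Z = ((C i ∩ C j).filter (fun t =>
        lb (φ i) (ω i) t = k ∧ lb (φ j) (ω j) t = k')).card := ⟨_, rfl⟩
    obtain ⟨m, hm⟩ : ∃ m, m = (C i ∩ C j).card := ⟨_, rfl⟩
    rw [← hZ, ← hm] at hno
    rw [← hZ, ← hm]
    have h4 : Real.exp (-(δ + δ ^ 2) * Z) ≤ (1 - δ) ^ Z := by
      have h5 := pow_le_pow_left₀ (Real.exp_nonneg _) (one_sub_ge_exp hδ0 hδ1) Z
      rw [← Real.exp_nat_mul] at h5
      have h6 : (Z : ℝ) * -(δ + δ ^ 2) = -(δ + δ ^ 2) * Z := by ring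
      rw [h6] at h5
      exact h5
    have h5 : (Z : ℝ) ≤ ((m : ℝ) - D0) / (Q : ℝ) ^ 2 := by
      rw [le_div_iff₀ (by linarith)]
      have h6 : ((Q ^ 2 * Z + D0 : ℕ) : ℝ) < m := by exact_mod_cast hno
      push_cast at h6
      linarith
    calc (1 : ℝ) ≤ Real.exp ((δ + δ ^ 2) * (((m : ℝ) - D0) / (Q : ℝ) ^ 2) +
          -(δ + δ ^ 2) * Z) := by
          rw [Real.one_le_exp_iff]
          have h6 : (δ + δ ^ 2) * (((m : ℝ) - D0) / (Q : ℝ) ^ 2) + -(δ + δ ^ 2) * Z =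
            (δ + δ ^ 2) * ((((m : ℝ) - D0) / (Q : ℝ) ^ 2) - Z) := by ring
          rw [h6]
          exact mul_nonneg (by positivity) (by linarith)
      _ = Real.exp ((δ + δ ^ 2) * (((m : ℝ) - D0) / (Q : ℝ) ^ 2)) *
          Real.exp (-(δ + δ ^ 2) * Z) := Real.exp_add _ _
      _ ≤ _ := mul_le_mul_of_nonneg_left h4 (Real.exp_nonneg _)
  linarith

/-- **Row L, one scale.** -/
theorem labelK {a N Q w e b D D0 : ℕ} (C : Fin a → Finset (Fin N)) (sz : Fin Q → ℕ) (hQ : 1 ≤ Q)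
    (hw : 1 ≤ w) (hsz : ∀ k, w ≤ sz k) (hC : ∀ i, (C i).card = ∑ k, sz k)
    (he : ∑ k, sz k ≤ Q * w + e) (hb : ∑ k, sz k ≤ b) (hD : D0 + 2 * e ≤ D)
    (hnum : (a : ℝ) ^ 2 * (Q : ℝ) ^ 2 < Real.exp ((D0 : ℝ) ^ 2 / (4 * b * (Q : ℝ) ^ 2))) :
    ∃ lab : Fin a → Fin N → Fin Q,
      (∀ i k, ((C i).filter (fun t => lab i t = k)).card = sz k) ∧
      ∀ i j, i ≠ j → ∀ k k', (C i ∩ C j).card ≤
        Q ^ 2 * ((C i ∩ C j).filter (fun t => lab i t = k ∧ lab j t = k')).card + D := by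
  classical
  have hle : ∀ i, Q * w ≤ (C i).card := by
    intro i
    rw [hC i]
    calc Q * w = ∑ _k : Fin Q, w := by
          rw [Finset.sum_const, Finset.card_univ, Fintype.card_fin, smul_eq_mul]
      _ ≤ ∑ k, sz k := Finset.sum_le_sum (fun k _ => hsz k)
  choose C' hC'sub hC'card using fun i => Finset.exists_subset_card_eq (hle i)
  -- the intersections lose at most `2 e`
  have hint : ∀ i j, (C i ∩ C j).card ≤ (C' i ∩ C' j).card + 2 * e := by
    intro i j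
    have h1 : C i ∩ C j ⊆ (C' i ∩ C' j) ∪ ((C i \ C' i) ∪ (C j \ C' j)) := by
      intro t ht
      rw [Finset.mem_inter] at ht
      rw [Finset.mem_union, Finset.mem_union, Finset.mem_inter, Finset.mem_sdiff,
        Finset.mem_sdiff]
      by_cases h2 : t ∈ C' i
      · by_cases h3 : t ∈ C' j
        · exact Or.inl ⟨h2, h3⟩
        · exact Or.inr (Or.inr ⟨ht.2, h3⟩)
      · exact Or.inr (Or.inl ⟨ht.1, h2⟩)
    have h2 := Finset.card_le_card h1
    have h3 := Finset.card_union_le (C' i ∩ C' j) ((C i \ C' i) ∪ (C j \ C' j))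
    have h4 := Finset.card_union_le (C i \ C' i) (C j \ C' j)
    have h5 := Finset.card_sdiff_add_card_eq_card (hC'sub i)
    have h6 := Finset.card_sdiff_add_card_eq_card (hC'sub j)
    have h7 := hC i
    have h8 := hC j
    have h9 := hC'card i
    have h10 := hC'card j
    omega
  by_cases ha : a = 0
  · subst ha
    exact ⟨fun i => i.elim0, fun i => i.elim0, fun i => i.elim0⟩
  obtain ⟨lab', h1, h2⟩ := kernelK C' hQ hw hC'card (b := b) (D0 := D0) (by
    have := hle ⟨0, by omega⟩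
    rw [hC] at this
    exact this.trans hb) hnum
  have hext : ∀ i, ∃ f : Fin N → Fin Q, (∀ t ∈ C' i, f t = lab' i t) ∧
      ∀ φ, ((C i).filter (fun t => f t = φ)).card = sz φ := by
    intro i
    apply extend N Q (C i) (C' i) (lab' i) sz (hC'sub i)
    · intro φ
      rw [h1 i φ]
      exact hsz φ
    · exact (hC i).symm
  choose lab hlab1 hlab2 using hext
  refine ⟨lab, hlab2, ?_⟩
  intro i j hij k k'
  have h3 := h2 i j hij k k'
  have h4 := hint i j
  have h5 : ((C' i ∩ C' j).filter (fun t => lab' i t = k ∧ lab' j t = k')).card ≤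
      ((C i ∩ C j).filter (fun t => lab i t = k ∧ lab j t = k')).card := by
    apply Finset.card_le_card
    intro t ht
    rw [Finset.mem_filter, Finset.mem_inter] at ht
    rw [Finset.mem_filter, Finset.mem_inter]
    refine ⟨⟨hC'sub i ht.1.1, hC'sub j ht.1.2⟩, ?_, ?_⟩
    · rw [hlab1 i t ht.1.1]
      exact ht.2.1
    · rw [hlab1 j t ht.1.2]
      exact ht.2.2
  have h6 := Nat.mul_le_mul_left (Q ^ 2) h5
  omega

end Vale.Agent.P181.H626
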