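import Vale.Agent.P181.H89.MainS
import Vale.Agent.P181.H629.StructK2
import Vale.Agent.P181.H626.LabelK

/-!
P181, power map theorem, one scale: assembly.
-/

set_option autoImplicit false

open scoped TensorProduct

namespace Vale.Agent.P181.H626

open Vale.Agent.P181 Vale.Agent.P181.H280 Vale.Agent.P181.H179 Vale.Agent.P181.T3 Finset
  MvPolynomial Vale.Agent.P181.H89

variable {n : ℕ}

section

variable {a q N Q : ℕ} {l' : Fin N → ℕ}

/-- The regroupings which do not vanish mix inside the parts only. -/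
lemma struct_piecesK {s D X : ℕ} (hQ : 1 ≤ Q) (hs : 1 ≤ s)
    (hX : 2 * s * (s * (s + 1)) * Q * D < X)
    {F : MultilinearMap ℂ (fun _ : Fin a => MvPolynomial (Fin n) ℂ) ℂ} {e : Box l' → Fin a}
    (hcol : ∀ t u v, u ≠ v → e ⟨t, u⟩ ≠ e ⟨t, v⟩)
    (hmin : ∀ e' : Box l' → Fin a, VV F l' e' ≠ 0 →
        SK.wtK s X (cc (fun p : Box l' => p.1) e) ≤ SK.wtK s X (cc (fun p : Box l' => p.1) e'))
    (hgam : ∀ S : Finset (Fin a), S.card = s + 1 →
      2 * X ≤ ∑ p ∈ S.offDiag, (CC e p.1 ∩ CC e p.2).card)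
    (lab : Fin a → Fin N → Fin Q)
    (hlab2 : ∀ i j, i ≠ j → ∀ k k', (CC e i ∩ CC e j).card ≤
      Q ^ 2 * ((CC e i ∩ CC e j).filter (fun t => lab i t = k ∧ lab j t = k')).card + D)
    (y : Fin a × Fin Q → Fin a)
    (hy : ∀ m, (univ.filter (fun p => y p = m)).card = Q)
    (hVy : VV F l' (fun p => y (e p, lab (e p) p.1)) ≠ 0) :
    ∃ τ : Equiv.Perm (Fin a), ∀ p,
      SK.partK s X (cc (fun p : Box l' => p.1) e) (τ (y p)) =
        SK.partK s X (cc (fun p : Box l' => p.1) e) p.1 := by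
  classical
  have hcoly : ∀ x x' : Box l', x.1 = x'.1 → x ≠ x' →
      y (e x, lab (e x) x.1) ≠ y (e x', lab (e x') x'.1) := by
    rintro ⟨t, u⟩ ⟨t', v⟩ h1 h2 h3
    simp only at h1
    subst h1
    exact hVy (VV_anti _ _ t (fun h4 => h2 (by rw [h4])) h3)
  have hcole : ∀ x x' : Box l', x.1 = x'.1 → x ≠ x' → e x ≠ e x' := by
    rintro ⟨t, u⟩ ⟨t', v⟩ h1 h2 h3
    simp only at h1
    subst h1
    exact hcol t u v (fun h4 => h2 (by rw [h4])) h3
  obtain ⟨τ, hτ⟩ := SK.structK a N Q s D X (Box l') (fun p => p.1)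
    (fun p => (e p, lab (e p) p.1)) hcole hQ hs (by
      intro i j hij κ κ'
      rw [cc_eq]
      refine (hlab2 i j hij κ κ').trans (Nat.add_le_add_right (Nat.mul_le_mul_left _
        (Finset.card_le_card ?_)) _)
      intro t ht
      rw [Finset.mem_filter, Finset.mem_inter, mem_CC, mem_CC] at ht
      obtain ⟨⟨⟨x, rfl, hx2⟩, x', hx1', hx2'⟩, h1, h2⟩ := ht
      rw [Finset.mem_filter]
      refine ⟨Finset.mem_univ _, ⟨x, rfl, ?_⟩, x', hx1', ?_⟩
      · rw [hx2, h1]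
      · rw [hx2', hx1', h2]) hX (by
      intro S hS
      rw [Finset.sum_congr rfl (g := fun p : Fin a × Fin a => (CC e p.1 ∩ CC e p.2).card)
        (fun p _ => cc_eq e p.1 p.2)]
      exact hgam S hS) y hy hcoly (hmin _ hVy)
  exact ⟨τ, fun p => hτ p.1 p.2⟩

end

/-- The power map is injective on the highest weight vectors whose weight forces any `s + 1` rows
to share many columns, given the power map theorem for at most `s` rows and large forms. -/
theorem injK {a q Q s w e D D0 X : ℕ} (ty : Fin Q → Bool) (c gz : Bool → ℕ)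
    (hs : 1 ≤ s) (ha : s + 1 ≤ a) (hQ1 : 1 ≤ Q) (hc : ∃ z, 1 ≤ c z)
    (hQ : ∀ z, (univ.filter (fun κ => ty κ = z)).card = q * c z)
    (hah : a = c true * gz true + c false * gz false)
    (hw : 1 ≤ w) (hg : ∀ κ, w ≤ gz (ty κ)) (he : q * a ≤ Q * w + e)
    (hD : D0 + 2 * e ≤ D)
    (hnum : (a : ℝ) ^ 2 * (Q : ℝ) ^ 2 <
      Real.exp ((D0 : ℝ) ^ 2 / (4 * ((q * a : ℕ) : ℝ) * (Q : ℝ) ^ 2)))
    (hX : 2 * s * (s * (s + 1)) * Q * D < X)
    (hPM : ∀ s', 1 ≤ s' → s' ≤ s → GK.PM2 s' q c)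
    (lam : Fin n → ℕ)
    (hlam : (∃ M, (∀ m, lam m ≤ M) ∧ M + X ≤ (s + 1) * (q * a)) ∨
      (a + 1 ≤ n + s ∧ ∀ m : Fin n, (m : ℕ) + s ≤ a → X ≤ lam m))
    (x : Sym[ℂ]^a (Sym[ℂ]^(q * a) (Fin n → ℂ))) (hx : x ∈ hwSpace lam (plethAct a (q * a) n))
    (h0 : powMap a q (Fin n → ℂ) x = 0) : x = 0 := by
  classical
  obtain ⟨l, rfl⟩ := exists_elOf x
  apply elOf_zero_of_fullForm
  by_contra hne
  obtain ⟨N, l', r, hV, hmin, hgam⟩ := exists_minS hs ha lam hlam l hx hne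
    (fun N l' e => SK.wtK s X (cc (fun p : Box l' => p.1) e))
  have hcol : ∀ t u v, u ≠ v → r ⟨t, u⟩ ≠ r ⟨t, v⟩ := fun t u v huv h =>
    hV (VV_anti _ r t huv h)
  have hrow := VV_card (fullForm_deg l) hV
  have hC : ∀ i, (CC r i).card = ∑ κ, gz (ty κ) := by
    intro i
    rw [CC_card hcol hrow i, sum_szS ty gz hQ, ← hah]
  obtain ⟨lab, hlab1, hlab2⟩ := labelK (w := w) (e := e) (b := q * a) (D := D) (D0 := D0)
    (CC r) (fun κ => gz (ty κ)) hQ1 hw hg hC (by
      rw [sum_szS ty gz hQ, ← hah]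
      exact he) (by
      rw [sum_szS ty gz hQ, ← hah]) hD hnum
  have hpcsize : ∀ i κ, (univ.filter (fun p : Box l' => (r p, lab (r p) p.1) = (i, κ))).card =
      gz (ty κ) := by
    intro i κ
    rw [← hlab1 i κ, ← CC_bij hcol i (fun t => lab i t = κ)]
    congr 1
    apply Finset.filter_congr
    intro p _
    rw [Prod.mk.injEq]
    constructor
    · rintro ⟨h1, h2⟩
      exact ⟨h1, by rw [← h1]; exact h2⟩
    · rintro ⟨h1, h2⟩
      exact ⟨h1, by rw [h1]; exact h2⟩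
  refine hV (GK.tensor2 (part := SK.partK s X (cc (fun p : Box l' => p.1) r)) ty c hc
    (fun i => hPM _ ?_ ?_) (fun y => VV (fullForm l) l' (fun p => y (r p, lab (r p) p.1)))
    (fun τ y => VV_symm (fullForm_symm l) τ (fun p => y (r p, lab (r p) p.1)))
    (fun ρ hρ => rel_piecesS (fun G hG => fullForm_pow l h0 G hG)
      (fun p => (r p, lab (r p) p.1)) ty c gz hpcsize hah ρ hρ) hQ
    (fun y hy hVy => struct_piecesK hQ1 hs hX hcol hmin hgam lab hlab2 y (fun m => ?_) hVy))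
  · exact Finset.card_pos.2 ⟨i, Finset.mem_filter.2 ⟨Finset.mem_univ _, rfl⟩⟩
  · exact SK.card_partK hs X _ _
  · have h1 : (univ.filter (fun p : Fin a × Fin Q => y p = m)).card =
        ∑ z : Bool, ((univ.filter (fun p : Fin a × Fin Q => y p = m)).filter
          (fun p => ty p.2 = z)).card :=
      Finset.card_eq_sum_card_fiberwise (fun p _ => Finset.mem_coe.2 (Finset.mem_univ _))
    have h2 : (Finset.univ : Finset (Fin Q)).card =
        ∑ z : Bool, ((Finset.univ : Finset (Fin Q)).filter (fun κ => ty κ = z)).card :=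
      Finset.card_eq_sum_card_fiberwise (fun p _ => Finset.mem_coe.2 (Finset.mem_univ _))
    rw [Finset.card_univ, Fintype.card_fin, Fintype.sum_bool, hQ, hQ] at h2
    rw [h1, Fintype.sum_bool, Finset.filter_filter, Finset.filter_filter, hy, hy, h2]

end Vale.Agent.P181.H626
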