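import Mathlib

/-!
P181, power map theorem, one scale: numbers.
-/

set_option autoImplicit false

namespace Vale.Agent.P181.H626

/-- Row N, one scale. -/
theorem numK (s q k a X : ℕ) (hs : 2 ≤ s) (hq : 1 ≤ q) (hk : k = s * s * (q + 1))
    (ha : 25 * s ^ 4 * q ^ 2 ≤ a)
    (hX : (10 : ℝ) ^ 6 * (s : ℝ) ^ 14 * (q : ℝ) ^ 9 * a * Real.log a ≤ (X : ℝ) ^ 2) :
    ∃ D0 : ℕ, (a : ℝ) ^ 2 * ((q * (2 * k + 1) : ℕ) : ℝ) ^ 2 <
      Real.exp ((D0 : ℝ) ^ 2 / (4 * ((q * a : ℕ) : ℝ) * ((q * (2 * k + 1) : ℕ) : ℝ) ^ 2)) ∧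
      2 * s * (s * (s + 1)) * (q * (2 * k + 1)) *
        (D0 + 2 * (2 * k * (q * (2 * k + 1) + q))) < X := by
  have hsR : (2 : ℝ) ≤ s := by exact_mod_cast hs
  have hqR : (1 : ℝ) ≤ q := by exact_mod_cast hq
  have haR : 25 * (s : ℝ) ^ 4 * (q : ℝ) ^ 2 ≤ a := by exact_mod_cast ha
  have hs2 : (4 : ℝ) ≤ (s : ℝ) ^ 2 := by nlinarith
  have hs4 : (16 : ℝ) ≤ (s : ℝ) ^ 4 := by
    have : (s : ℝ) ^ 4 = (s : ℝ) ^ 2 * (s : ℝ) ^ 2 := by ring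
    rw [this]
    nlinarith
  have hq2 : (1 : ℝ) ≤ (q : ℝ) ^ 2 := one_le_pow₀ hqR
  have ha400 : (400 : ℝ) ≤ a := by
    have h1 : (16 : ℝ) * 1 ≤ (s : ℝ) ^ 4 * (q : ℝ) ^ 2 :=
      mul_le_mul hs4 hq2 (by norm_num) (by positivity)
    nlinarith
  have ha0 : (0 : ℝ) < a := by linarith
  obtain ⟨L, hL⟩ : ∃ L, L = Real.log a := ⟨_, rfl⟩
  have hL1 : 1 ≤ L := by
    rw [hL, Real.le_log_iff_exp_le ha0]
    have := Real.exp_one_lt_d9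
    linarith
  rw [← hL] at hX
  obtain ⟨R, hR⟩ : ∃ R, R = Real.sqrt (q * a * L) := ⟨_, rfl⟩
  have hqa0 : 0 ≤ (q : ℝ) * a * L := by positivity
  have hR2 : R ^ 2 = q * a * L := by
    rw [hR, Real.sq_sqrt hqa0]
  have hR0 : 0 ≤ R := by
    rw [hR]
    exact Real.sqrt_nonneg _
  have haL : (a : ℝ) ≤ q * a * L := by
    have h1 : (1 : ℝ) * a * 1 ≤ q * a * L :=
      mul_le_mul (mul_le_mul_of_nonneg_right hqR ha0.le) hL1 (by norm_num) (by positivity)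
    linarith
  have h5 : 5 * ((s : ℝ) ^ 2 * q) ≤ R := by
    rw [hR]
    apply Real.le_sqrt_of_sq_le
    refine le_trans (le_of_eq ?_) (haR.trans haL)
    ring
  have hR20 : 20 ≤ R := by
    have h1 : (4 : ℝ) * 1 ≤ (s : ℝ) ^ 2 * q := mul_le_mul hs2 hqR (by norm_num) (by positivity)
    linarith
  -- the number of pieces
  obtain ⟨Q, hQ⟩ : ∃ Q, Q = q * (2 * k + 1) := ⟨_, rfl⟩
  rw [← hQ]
  have hkR : (k : ℝ) = s * s * (q + 1) := by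
    rw [hk]
    push_cast
    ring
  have hQR : (Q : ℝ) = q * (2 * k + 1) := by
    rw [hQ]
    push_cast
    ring
  have hk5 : 2 * (k : ℝ) + 1 ≤ 5 * ((s : ℝ) ^ 2 * q) := by
    rw [hkR]
    have h1 : (s : ℝ) ^ 2 * 1 ≤ (s : ℝ) ^ 2 * q := mul_le_mul_of_nonneg_left hqR (by positivity)
    nlinarith
  have hk0 : (0 : ℝ) ≤ k := Nat.cast_nonneg _
  have hk8 : (8 : ℝ) ≤ k := by
    rw [hkR]
    nlinarith
  have hQ5 : (Q : ℝ) ≤ 5 * (s : ℝ) ^ 2 * (q : ℝ) ^ 2 := by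
    rw [hQR]
    calc (q : ℝ) * (2 * k + 1) ≤ q * (5 * ((s : ℝ) ^ 2 * q)) :=
          mul_le_mul_of_nonneg_left hk5 (by linarith)
      _ = _ := by ring
  have hQq : 17 * (q : ℝ) ≤ Q := by
    rw [hQR]
    nlinarith
  have hQ17 : (17 : ℝ) ≤ Q := by linarith
  have hQa : (Q : ℝ) ≤ a := by
    refine hQ5.trans (le_trans ?_ haR)
    have h1 : (s : ℝ) ^ 2 * 1 ≤ (s : ℝ) ^ 2 * (s : ℝ) ^ 2 :=
      mul_le_mul_of_nonneg_left (by linarith) (by positivity)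
    have h2 : (s : ℝ) ^ 2 ≤ (s : ℝ) ^ 4 := by
      have : (s : ℝ) ^ 4 = (s : ℝ) ^ 2 * (s : ℝ) ^ 2 := by ring
      rw [this]
      linarith
    have h3 : 5 * (s : ℝ) ^ 2 ≤ 25 * (s : ℝ) ^ 4 := by linarith
    exact mul_le_mul_of_nonneg_right h3 (by positivity)
  refine ⟨⌊4 * Q * R⌋₊ + 1, ?_, ?_⟩
  · have h1 : 4 * Q * R < ((⌊4 * Q * R⌋₊ + 1 : ℕ) : ℝ) := by
      push_cast
      exact Nat.lt_floor_add_one _
    have h2 : (4 * Q * R) ^ 2 < ((⌊4 * Q * R⌋₊ + 1 : ℕ) : ℝ) ^ 2 :=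
      pow_lt_pow_left₀ h1 (by positivity) (by norm_num)
    have h3 : (4 * Q * R) ^ 2 = 4 * L * (4 * ((q * a : ℕ) : ℝ) * (Q : ℝ) ^ 2) := by
      have : (4 * Q * R) ^ 2 = 16 * (Q : ℝ) ^ 2 * R ^ 2 := by ring
      rw [this, hR2]
      push_cast
      ring
    have h4 : 0 < 4 * ((q * a : ℕ) : ℝ) * (Q : ℝ) ^ 2 := by
      push_cast
      positivity
    have h5 : 4 * L < ((⌊4 * Q * R⌋₊ + 1 : ℕ) : ℝ) ^ 2 /
        (4 * ((q * a : ℕ) : ℝ) * (Q : ℝ) ^ 2) := by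
      rw [lt_div_iff₀ h4, ← h3]
      exact h2
    have h6 : (a : ℝ) ^ 2 * (Q : ℝ) ^ 2 ≤ Real.exp (4 * L) := by
      have h7 : Real.exp (4 * L) = (a : ℝ) ^ 4 := by
        rw [hL, mul_comm, Real.exp_mul, Real.exp_log ha0]
        norm_cast
      rw [h7]
      calc (a : ℝ) ^ 2 * (Q : ℝ) ^ 2 ≤ (a : ℝ) ^ 2 * (a : ℝ) ^ 2 :=
            mul_le_mul_of_nonneg_left (pow_le_pow_left₀ (by linarith) hQa 2) (by positivity)
        _ = _ := by ring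
    exact lt_of_le_of_lt h6 (Real.exp_lt_exp.2 h5)
  · have h1 : ((⌊4 * Q * R⌋₊ + 1 : ℕ) : ℝ) ≤ 4 * Q * R + 1 := by
      push_cast
      have := Nat.floor_le (show 0 ≤ 4 * Q * R by positivity)
      linarith
    have h2 : 2 * (2 * (k : ℝ) * (Q + q)) ≤ 2.2 * Q * R := by
      have h3 : 2 * (k : ℝ) ≤ R := by linarith
      have h4 : (Q : ℝ) + q ≤ 1.1 * Q := by linarith
      have h5 : 2 * (k : ℝ) * (Q + q) ≤ R * (1.1 * Q) :=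
        mul_le_mul h3 h4 (by positivity) hR0
      linarith
    have h3 : ((⌊4 * Q * R⌋₊ + 1 : ℕ) : ℝ) + 2 * (2 * (k : ℝ) * (Q + q)) ≤ 6.3 * Q * R := by
      have h4 : (17 : ℝ) * 20 ≤ Q * R := mul_le_mul hQ17 hR20 (by norm_num) (by linarith)
      linarith
    have h4 : 2 * (s : ℝ) * (s * (s + 1)) ≤ 3 * (s : ℝ) ^ 3 := by
      have h5 : 0 ≤ (s : ℝ) ^ 2 * (s - 2) := mul_nonneg (by positivity) (by linarith)
      nlinarith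
    have h5 : (Q : ℝ) * Q ≤ 25 * (s : ℝ) ^ 4 * (q : ℝ) ^ 4 := by
      calc (Q : ℝ) * Q ≤ (5 * (s : ℝ) ^ 2 * (q : ℝ) ^ 2) * (5 * (s : ℝ) ^ 2 * (q : ℝ) ^ 2) :=
            mul_le_mul hQ5 hQ5 (by linarith) (by positivity)
        _ = _ := by ring
    have h6 : 2 * (s : ℝ) * (s * (s + 1)) * Q *
        (((⌊4 * Q * R⌋₊ + 1 : ℕ) : ℝ) + 2 * (2 * (k : ℝ) * (Q + q))) ≤
        473 * ((s : ℝ) ^ 7 * (q : ℝ) ^ 4 * R) := by
      calc 2 * (s : ℝ) * (s * (s + 1)) * Q *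
          (((⌊4 * Q * R⌋₊ + 1 : ℕ) : ℝ) + 2 * (2 * (k : ℝ) * (Q + q))) ≤
          (3 * (s : ℝ) ^ 3) * Q * (6.3 * Q * R) :=
            mul_le_mul (mul_le_mul_of_nonneg_right h4 (by linarith)) h3 (by positivity)
              (by positivity)
        _ = 18.9 * ((s : ℝ) ^ 3 * R) * (Q * Q) := by ring
        _ ≤ 18.9 * ((s : ℝ) ^ 3 * R) * (25 * (s : ℝ) ^ 4 * (q : ℝ) ^ 4) :=
            mul_le_mul_of_nonneg_left h5 (by positivity)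
        _ = 472.5 * ((s : ℝ) ^ 7 * (q : ℝ) ^ 4 * R) := by ring
        _ ≤ _ := mul_le_mul_of_nonneg_right (by norm_num) (by positivity)
    have h7 : 473 * ((s : ℝ) ^ 7 * (q : ℝ) ^ 4 * R) < X := by
      apply lt_of_pow_lt_pow_left₀ 2 (Nat.cast_nonneg _)
      refine lt_of_lt_of_le ?_ hX
      have h8 : (473 * ((s : ℝ) ^ 7 * (q : ℝ) ^ 4 * R)) ^ 2 =
          473 ^ 2 * ((s : ℝ) ^ 14 * (q : ℝ) ^ 8 * R ^ 2) := by ring
      have h9 : (10 : ℝ) ^ 6 * (s : ℝ) ^ 14 * (q : ℝ) ^ 9 * a * L =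
          10 ^ 6 * ((s : ℝ) ^ 14 * (q : ℝ) ^ 8 * R ^ 2) := by
        rw [hR2]
        ring
      rw [h8, h9]
      apply mul_lt_mul_of_pos_right (by norm_num)
      positivity
    have h8 := lt_of_le_of_lt h6 h7
    rw [← Nat.cast_lt (α := ℝ)]
    refine lt_of_le_of_lt (le_of_eq ?_) h8
    push_cast
    ring

end Vale.Agent.P181.H626
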