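import Vale.Agent.P181.H89.TopS
import Vale.Agent.P181.H626.InjK
import Vale.Agent.P181.H626.NumK

/-!
P181, power map theorem for `b = q a`, one scale: every weight which forces any `s + 1` rows to
share `X` columns, `X ^ 2 ≥ C s ^ 14 q ^ 9 a log a`.
-/

set_option autoImplicit false

open scoped TensorProduct

namespace Vale.Agent.P181.H626

open Vale.Agent.P181 Vale.Agent.P181.H280 Vale.Agent.P181.H179 Vale.Agent.P181.T3 Finset
  Vale.Agent.P181.H89

/-- **The power map, one scale.** -/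
theorem powMapK {s q a X n : ℕ} (hs : 2 ≤ s) (hq : 1 ≤ q) (hn : 1 ≤ n)
    (ha : 25 * s ^ 4 * q ^ 2 ≤ a)
    (hX : (10 : ℝ) ^ 6 * (s : ℝ) ^ 14 * (q : ℝ) ^ 9 * a * Real.log a ≤ (X : ℝ) ^ 2)
    (lam : Fin n → ℕ)
    (hlam : (∀ m, lam m + X ≤ (s + 1) * (q * a)) ∨
      (a + 1 ≤ n + s ∧ ∀ m : Fin n, (m : ℕ) + s ≤ a → X ≤ lam m))
    (x : Sym[ℂ]^a (Sym[ℂ]^(q * a) (Fin n → ℂ))) (hx : x ∈ hwSpace lam (plethAct a (q * a) n))
    (h0 : powMap a q (Fin n → ℂ) x = 0) : x = 0 := by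
  obtain ⟨k, hk⟩ : ∃ k, k = s * s * (q + 1) := ⟨_, rfl⟩
  have hkq : s * (s - 1) * (q + 1) ≤ k := by
    rw [hk]
    exact Nat.mul_le_mul_right _ (Nat.mul_le_mul_left s (by omega))
  have hk1 : 1 ≤ k := by
    rw [hk]
    exact Nat.mul_pos (Nat.mul_pos (by omega) (by omega)) (by omega)
  have hQ1 : 1 ≤ q * (2 * k + 1) := Nat.mul_pos hq (by omega)
  have hk5 : 2 * k + 1 ≤ 5 * (s * s * q) := by
    rw [hk]
    have h1 : 1 ≤ s * s * q := Nat.mul_pos (Nat.mul_pos (by omega) (by omega)) (by omega)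
    have h2 : s * s * 1 ≤ s * s * q := Nat.mul_le_mul_left _ hq
    calc 2 * (s * s * (q + 1)) + 1 = 2 * (s * s * q) + 2 * (s * s * 1) + 1 := by ring
      _ ≤ 2 * (s * s * q) + 2 * (s * s * q) + s * s * q := by omega
      _ = 5 * (s * s * q) := by ring
  have ha2 : (2 * k + 1) * (2 * k + 1) ≤ a := by
    refine le_trans (Nat.mul_le_mul hk5 hk5) (le_trans (le_of_eq ?_) ha)
    ring
  have ha3 : s + 1 ≤ a := by
    have h1 : s * 1 ≤ s * s := Nat.mul_le_mul_left s (by omega)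
    have h2 : s * s * 1 ≤ s * s * (q + 1) := Nat.mul_le_mul_left _ (by omega)
    have h3 : (2 * k + 1) * 1 ≤ (2 * k + 1) * (2 * k + 1) := Nat.mul_le_mul_left _ (by omega)
    omega
  obtain ⟨D0, hnum, hDX⟩ := numK s q k a X hs hq hk ha hX
  obtain ⟨g, g', w, hag, hw, hg, hg', he⟩ := sizesS k q a ha2
  refine injK (s := s) (w := w) (e := 2 * k * (q * (2 * k + 1) + q)) (D0 := D0)
    (D := D0 + 2 * (2 * k * (q * (2 * k + 1) + q))) (X := X)
    (tyS k q) (cS k) (gS g g') (by omega) ha3 hQ1 ⟨true, by rw [cS, if_pos rfl]; exact hk1⟩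
    (card_tyS k q) (by rw [cS, cS, gS, gS, if_pos rfl, if_pos rfl, if_neg Bool.false_ne_true,
      if_neg Bool.false_ne_true]; exact hag) hw (fun κ => by
      rw [gS]
      split_ifs
      · exact hg
      · exact hg') he le_rfl hnum hDX
    (fun s' h1 h2 => pmAll s q hq s' (cS k) h1 h2 (fun z => by
      rw [cS]
      split_ifs
      · exact hkq
      · omega)) lam ?_ x hx h0
  rcases hlam with h | h
  · left
    have h1 := h ⟨0, by omega⟩
    refine ⟨(s + 1) * (q * a) - X, fun m => ?_, ?_⟩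
    · have := h m
      omega
    · omega
  · exact Or.inr h

/-- Multiplicities. -/
theorem multK {s q a X n : ℕ} (hs : 2 ≤ s) (hq : 1 ≤ q) (hn : 1 ≤ n)
    (ha : 25 * s ^ 4 * q ^ 2 ≤ a)
    (hX : (10 : ℝ) ^ 6 * (s : ℝ) ^ 14 * (q : ℝ) ^ 9 * a * Real.log a ≤ (X : ℝ) ^ 2)
    (lam : Fin n → ℕ)
    (hlam : (∀ m, lam m + X ≤ (s + 1) * (q * a)) ∨
      (a + 1 ≤ n + s ∧ ∀ m : Fin n, (m : ℕ) + s ≤ a → X ≤ lam m)) :
    plethMult a (q * a) n lam ≤ plethMult (q * a) a n lam :=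
  finrank_le_of_inj (powMap a q (Fin n → ℂ)) _ _ (fun x hx => powMap_hwSpace lam x hx)
    (fun x hx h0 => powMapK hs hq hn ha hX lam hlam x hx h0)

/-- Propagation in `b`. -/
theorem propK {s q a X n k : ℕ} (hs : 2 ≤ s) (hq : 1 ≤ q)
    (ha : 25 * s ^ 4 * q ^ 2 ≤ a)
    (hX : (10 : ℝ) ^ 6 * (s : ℝ) ^ 14 * (q : ℝ) ^ 9 * a * Real.log a ≤ (X : ℝ) ^ 2)
    (lam : Fin (n + 1) → ℕ) (hlam : ∀ i, i ≠ 0 → lam i ≤ q * a)
    (h0 : (lam 0 + X ≤ (s + 1) * (q * a) + a * k ∧ ∀ i, i ≠ 0 → lam i + X ≤ (s + 1) * (q * a)) ∨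
      (a ≤ n + s ∧ a * k + X ≤ lam 0 ∧
        ∀ i : Fin (n + 1), i ≠ 0 → (i : ℕ) + s ≤ a → X ≤ lam i)) :
    plethMult a (q * a + k) (n + 1) lam ≤ plethMult (q * a + k) a (n + 1) lam := by
  apply reduction a (q * a) k lam hlam
  intro c hc
  apply multK hs hq (by omega) ha hX
  rcases h0 with ⟨h0, h1⟩ | ⟨han, h0, h1⟩
  · left
    intro m
    by_cases hm : m = 0
    · subst hm
      rw [Function.update_self]
      omega
    · rw [Function.update_of_ne hm]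
      exact h1 m hm
  · right
    refine ⟨by omega, fun m hma => ?_⟩
    by_cases hm : m = 0
    · subst hm
      rw [Function.update_self]
      omega
    · rw [Function.update_of_ne hm]
      exact h1 m hm hma

end Vale.Agent.P181.H626
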