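import Vale.Agent.P181.T3.Spec2
import Mathlib.Logic.Equiv.Fintype

/-!
P181, three rows, all `a`: row E (combinatorics for `2 + 3`), by one connected path.
-/

set_option autoImplicit false

namespace Vale.Agent.P181.T3

open Finset

lemma perm_init (n : ℕ) (A : Finset (Fin n)) :
    ∃ e : Equiv.Perm (Fin n), ∀ j, j ∈ A ↔ (e j : ℕ) < A.card := by
  classical
  have h1 : Fintype.card {j // j ∈ A} = Fintype.card {j : Fin n // (j : ℕ) < A.card} := by
    have h2 : A.card ≤ n := by
      simpa using Finset.card_le_univ A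
    rw [Fintype.card_coe]
    have h3 : Fintype.card {j : Fin n // (j : ℕ) < A.card} = Fintype.card (Fin A.card) :=
      Fintype.card_congr
        { toFun := fun j => ⟨j.1, j.2⟩
          invFun := fun j => ⟨⟨j, lt_of_lt_of_le j.2 h2⟩, j.2⟩
          left_inv := fun _ => rfl
          right_inv := fun _ => rfl }
    rw [h3, Fintype.card_fin]
  refine ⟨(Fintype.equivOfCardEq h1).extendSubtype, fun j => ⟨fun hj => ?_, fun hj => ?_⟩⟩
  · exact Equiv.extendSubtype_mem (Fintype.equivOfCardEq h1) j hj
  · by_contra hno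
    exact Equiv.extendSubtype_not_mem (Fintype.equivOfCardEq h1) j hno hj

/-- Tails, small labels. -/
def rs {q : ℕ} (hq : 0 < q) (j : Fin (2 * q)) : Fin q :=
  ⟨if ((j : ℕ) + 1) / 2 < q then ((j : ℕ) + 1) / 2 else 0, by split_ifs <;> omega⟩

/-- Heads, small labels. -/
def rs' {q : ℕ} (j : Fin (2 * q)) : Fin q := ⟨(j : ℕ) / 2, by omega⟩

/-- Tails, large labels. -/
def rl {q : ℕ} (hq : 0 < q) (j : Fin (3 * q)) : Fin q :=
  ⟨if (j : ℕ) < 2 * q then (if ((j : ℕ) + 1) / 2 < q then ((j : ℕ) + 1) / 2 else 0)
    else (j : ℕ) - 2 * q, by split_ifs <;> omega⟩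

/-- Heads, large labels. -/
def rl' {q : ℕ} (j : Fin (3 * q)) : Fin q :=
  ⟨if (j : ℕ) < 2 * q then (j : ℕ) / 2 else (j : ℕ) - 2 * q, by split_ifs <;> omega⟩

lemma card_rs {q : ℕ} (hq : 0 < q) (φ : Fin q) : (univ.filter (fun j => rs hq j = φ)).card = 2 := by
  rw [Finset.card_eq_two]
  by_cases h0 : (φ : ℕ) = 0
  · refine ⟨⟨0, by omega⟩, ⟨2 * q - 1, by omega⟩, ?_, ?_⟩
    · intro h
      have := congrArg Fin.val h
      simp only at this
      omega
    · ext j
      have hj := j.2
      simp only [mem_filter, mem_univ, true_and, mem_insert, mem_singleton, Fin.ext_iff, rs]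
      split_ifs <;> omega
  · have hφ := φ.2
    refine ⟨⟨2 * φ - 1, by omega⟩, ⟨2 * φ, by omega⟩, ?_, ?_⟩
    · intro h
      have := congrArg Fin.val h
      simp only at this
      omega
    · ext j
      have hj := j.2
      simp only [mem_filter, mem_univ, true_and, mem_insert, mem_singleton, Fin.ext_iff, rs]
      split_ifs <;> omega

lemma card_rs' {q : ℕ} (φ : Fin q) : (univ.filter (fun j => rs' j = φ)).card = 2 := by
  rw [Finset.card_eq_two]
  have hφ := φ.2
  refine ⟨⟨2 * φ, by omega⟩, ⟨2 * φ + 1, by omega⟩, ?_, ?_⟩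
  · intro h
    have := congrArg Fin.val h
    simp only at this
    omega
  · ext j
    have hj := j.2
    simp only [mem_filter, mem_univ, true_and, mem_insert, mem_singleton, Fin.ext_iff, rs']
    omega

lemma card_rl {q : ℕ} (hq : 0 < q) (φ : Fin q) : (univ.filter (fun j => rl hq j = φ)).card = 3 := by
  rw [Finset.card_eq_three]
  have hφ := φ.2
  by_cases h0 : (φ : ℕ) = 0
  · refine ⟨⟨0, by omega⟩, ⟨2 * q - 1, by omega⟩, ⟨2 * q, by omega⟩, ?_, ?_, ?_, ?_⟩
    · intro h
      have := congrArg Fin.val h
      simp only at this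
      omega
    · intro h
      have := congrArg Fin.val h
      simp only at this
      omega
    · intro h
      have := congrArg Fin.val h
      simp only at this
      omega
    · ext j
      have hj := j.2
      simp only [mem_filter, mem_univ, true_and, mem_insert, mem_singleton, Fin.ext_iff, rl]
      split_ifs <;> omega
  · refine ⟨⟨2 * φ - 1, by omega⟩, ⟨2 * φ, by omega⟩, ⟨2 * q + φ, by omega⟩, ?_, ?_, ?_, ?_⟩
    · intro h
      have := congrArg Fin.val h
      simp only at this
      omega
    · intro h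
      have := congrArg Fin.val h
      simp only at this
      omega
    · intro h
      have := congrArg Fin.val h
      simp only at this
      omega
    · ext j
      have hj := j.2
      simp only [mem_filter, mem_univ, true_and, mem_insert, mem_singleton, Fin.ext_iff, rl]
      split_ifs <;> omega

lemma card_rl' {q : ℕ} (φ : Fin q) : (univ.filter (fun j => rl' j = φ)).card = 3 := by
  rw [Finset.card_eq_three]
  have hφ := φ.2
  refine ⟨⟨2 * φ, by omega⟩, ⟨2 * φ + 1, by omega⟩, ⟨2 * q + φ, by omega⟩, ?_, ?_, ?_, ?_⟩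
  · intro h
    have := congrArg Fin.val h
    simp only at this
    omega
  · intro h
    have := congrArg Fin.val h
    simp only at this
    omega
  · intro h
    have := congrArg Fin.val h
    simp only at this
    omega
  · ext j
    have hj := j.2
    simp only [mem_filter, mem_univ, true_and, mem_insert, mem_singleton, Fin.ext_iff, rl']
    split_ifs <;> omega

/-- The path is connected, small labels. -/
lemma path_s {q : ℕ} (hq : 0 < q) (f f' : Fin q → Bool) (m : ℕ)
    (h : ∀ j : Fin (2 * q), (j : ℕ) < m → f (rs hq j) = f' (rs' j)) :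
    ∀ n : ℕ, ∀ hn : n < 2 * q, n < m → f (rs hq ⟨n, hn⟩) = f ⟨0, hq⟩ := by
  intro n
  induction n with
  | zero =>
    intro hn _
    congr 1
    apply Fin.ext
    simp only [rs]
    split_ifs <;> omega
  | succ n ih =>
    intro hn hm
    have ih' := ih (by omega) (by omega)
    rw [← ih']
    rcases Nat.even_or_odd n with he | ho
    · rw [h ⟨n + 1, hn⟩ hm, h ⟨n, by omega⟩ (show n < m by omega)]
      congr 1
      apply Fin.ext
      simp only [rs']
      obtain ⟨k, hk⟩ := he
      omega
    · congr 1
      apply Fin.ext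
      simp only [rs]
      obtain ⟨k, hk⟩ := ho
      have h1 : (n + 1 + 1) / 2 = (n + 1) / 2 := by omega
      rw [h1]

/-- The path is connected, large labels. -/
lemma path_l {q : ℕ} (hq : 0 < q) (f f' : Fin q → Bool) (m : ℕ)
    (h : ∀ j : Fin (3 * q), (j : ℕ) < m → f (rl hq j) = f' (rl' j)) :
    ∀ n : ℕ, ∀ hn : n < 3 * q, n < m → f (rl hq ⟨n, hn⟩) = f ⟨0, hq⟩ := by
  have h1 : ∀ n : ℕ, ∀ hn : n < 2 * q, n < m → f (rl hq ⟨n, by omega⟩) = f ⟨0, hq⟩ := by
    intro n
    induction n with
    | zero =>
      intro hn _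
      congr 1
      apply Fin.ext
      simp only [rl]
      split_ifs <;> omega
    | succ n ih =>
      intro hn hm
      have ih' := ih (by omega) (by omega)
      rw [← ih']
      rcases Nat.even_or_odd n with he | ho
      · rw [h ⟨n + 1, by omega⟩ hm, h ⟨n, by omega⟩ (show n < m by omega)]
        congr 1
        apply Fin.ext
        simp only [rl']
        obtain ⟨k, hk⟩ := he
        rw [if_pos hn, if_pos (by omega)]
        omega
      · congr 1
        apply Fin.ext
        simp only [rl]
        obtain ⟨k, hk⟩ := ho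
        have h1 : (n + 1 + 1) / 2 = (n + 1) / 2 := by omega
        rw [h1, if_pos hn, if_pos (show n < 2 * q by omega)]
  intro n hn hm
  by_cases h2 : n < 2 * q
  · exact h1 n h2 hm
  · rw [← h1 (2 * (n - 2 * q)) (by omega) (by omega)]
    congr 1
    apply Fin.ext
    simp only [rl]
    rw [if_neg h2, if_pos (show 2 * (n - 2 * q) < 2 * q by omega),
      if_pos (show (2 * (n - 2 * q) + 1) / 2 < q by omega)]
    omega

/-- Row E. -/
theorem comb : CombStmt := by
  classical
  intro q A hA
  rcases Nat.eq_zero_or_pos q with hq | hq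
  · subst hq
    exact ⟨fun κ => ⟨κ, by have := κ.2; omega⟩, fun κ => ⟨κ, by have := κ.2; omega⟩,
      fun φ => φ.elim0, fun φ => φ.elim0, fun f f' _ => by
        have h1 : A = ∅ := by
          apply Finset.eq_empty_of_forall_notMem
          intro κ _
          exact absurd κ.2 (by omega)
        rw [h1]
        exact ⟨0, rfl⟩⟩
  let E : Fin (2 * q) ⊕ Fin (3 * q) ≃ Fin (5 * q) :=
    finSumFinEquiv.trans (finCongr (by ring))
  have hEl : ∀ j : Fin (2 * q), ((E (Sum.inl j) : Fin (5 * q)) : ℕ) = j := fun j => by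
    simp [E]
  have hEr : ∀ j : Fin (3 * q), ((E (Sum.inr j) : Fin (5 * q)) : ℕ) = 2 * q + j := fun j => by
    simp [E]
  obtain ⟨e1, he1⟩ := perm_init (2 * q) (univ.filter (fun j => E (Sum.inl j) ∈ A))
  obtain ⟨e2, he2⟩ := perm_init (3 * q) (univ.filter (fun j => E (Sum.inr j) ∈ A))
  let s : (Fin (2 * q) → Fin q) → (Fin (3 * q) → Fin q) → Fin (5 * q) → Fin q :=
    fun u v κ => Sum.elim (fun j => u (e1 j)) (fun j => v (e2 j)) (E.symm κ)
  have hsl : ∀ u v j, s u v (E (Sum.inl j)) = u (e1 j) := fun u v j => by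
    simp only [s, Equiv.symm_apply_apply, Sum.elim_inl]
  have hsr : ∀ u v j, s u v (E (Sum.inr j)) = v (e2 j) := fun u v j => by
    simp only [s, Equiv.symm_apply_apply, Sum.elim_inr]
  have htyped : ∀ u v, (∀ φ, (univ.filter (fun j => u j = φ)).card = 2) →
      (∀ φ, (univ.filter (fun j => v j = φ)).card = 3) →
      Typed (fun κ : Fin (5 * q) => decide ((κ : ℕ) < 2 * q)) (fun z => if z then 2 else 3)
        (s u v) := by
    intro u v hu hv φ z
    cases z
    · simp only [Bool.false_eq_true, if_false, decide_eq_false_iff_not]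
      refine Eq.trans (Eq.symm ?_) (hv φ)
      apply Finset.card_bij (fun j _ => E (Sum.inr (e2.symm j)))
      · intro j hj
        simp only [mem_filter, mem_univ, true_and] at hj ⊢
        rw [hsr, Equiv.apply_symm_apply, hEr]
        exact ⟨hj, by omega⟩
      · intro i _ j _ hij
        exact e2.symm.injective (Sum.inr_injective (E.injective hij))
      · intro κ hκ
        simp only [mem_filter, mem_univ, true_and] at hκ
        obtain ⟨x, rfl⟩ := E.surjective κ
        rcases x with j | j
        · exfalso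
          apply hκ.2
          rw [hEl]
          exact j.2
        · refine ⟨e2 j, ?_, ?_⟩
          · simp only [mem_filter, mem_univ, true_and]
            rw [← hκ.1, hsr]
          · rw [Equiv.symm_apply_apply]
    · simp only [if_true, decide_eq_true_eq]
      refine Eq.trans (Eq.symm ?_) (hu φ)
      apply Finset.card_bij (fun j _ => E (Sum.inl (e1.symm j)))
      · intro j hj
        simp only [mem_filter, mem_univ, true_and] at hj ⊢
        rw [hsl, Equiv.apply_symm_apply, hEl]
        exact ⟨hj, (e1.symm j).2⟩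
      · intro i _ j _ hij
        exact e1.symm.injective (Sum.inl_injective (E.injective hij))
      · intro κ hκ
        simp only [mem_filter, mem_univ, true_and] at hκ
        obtain ⟨x, rfl⟩ := E.surjective κ
        rcases x with j | j
        · refine ⟨e1 j, ?_, ?_⟩
          · simp only [mem_filter, mem_univ, true_and]
            rw [← hκ.1, hsl]
          · rw [Equiv.symm_apply_apply]
        · exfalso
          have := hκ.2
          rw [hEr] at this
          omega
  refine ⟨s (rs hq) (rl hq), s rs' rl', htyped _ _ (card_rs hq) (card_rl hq),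
    htyped _ _ card_rs' card_rl', ?_⟩
  intro f f' hff
  set m1 := (univ.filter (fun j => E (Sum.inl j) ∈ A)).card with hm1
  set m2 := (univ.filter (fun j => E (Sum.inr j) ∈ A)).card with hm2
  have hp1 := path_s hq f f' m1 (by
    intro j hj
    obtain ⟨i, rfl⟩ := e1.surjective j
    have h1 := (he1 i).2 hj
    rw [Finset.mem_filter] at h1
    have h2 := hff _ h1.2
    rw [hsl, hsl] at h2
    exact h2)
  have hp2 := path_l hq f f' m2 (by
    intro j hj
    obtain ⟨i, rfl⟩ := e2.surjective j
    have h1 := (he2 i).2 hj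
    rw [Finset.mem_filter] at h1
    have h2 := hff _ h1.2
    rw [hsr, hsr] at h2
    exact h2)
  have hall : ∀ κ ∈ A, f (s (rs hq) (rl hq) κ) = f ⟨0, hq⟩ := by
    intro κ hκ
    obtain ⟨x, rfl⟩ := E.surjective κ
    rcases x with j | j
    · rw [hsl]
      exact hp1 (e1 j) (e1 j).2 ((he1 j).1 (Finset.mem_filter.2 ⟨Finset.mem_univ _, hκ⟩))
    · rw [hsr]
      exact hp2 (e2 j) (e2 j).2 ((he2 j).1 (Finset.mem_filter.2 ⟨Finset.mem_univ _, hκ⟩))
  by_cases h0 : f ⟨0, hq⟩ = true
  · rw [Finset.filter_true_of_mem (fun κ hκ => by rw [hall κ hκ]; exact h0)]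
    exact hA
  · rw [Finset.filter_false_of_mem (fun κ hκ => by rw [hall κ hκ]; exact h0)]
    exact ⟨0, rfl⟩

end Vale.Agent.P181.T3
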