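import Mathlib.Tactic
import Mathlib.Analysis.SpecialFunctions.Log.Basic
import Mathlib.Analysis.Complex.ExponentialBounds

/-!
P181, three rows, all `a`: constants.
-/

set_option autoImplicit false

namespace Vale.Agent.P181.T3

/-- `a = 2 g + 3 g'` with `g, g'` close to `a / 5`. -/
lemma sizes23 (a : ℕ) (ha : 7 ≤ a) : ∃ g g' w : ℕ, a = 2 * g + 3 * g' ∧ 1 ≤ w ∧ w ≤ g ∧ w ≤ g' ∧
    ∀ q : ℕ, q * a ≤ 5 * q * w + 6 * q := by
  have key : ∀ g g' w r : ℕ, a = 2 * g + 3 * g' → 1 ≤ w → w ≤ g → w ≤ g' → a ≤ 5 * w + 6 →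
      ∃ g g' w : ℕ, a = 2 * g + 3 * g' ∧ 1 ≤ w ∧ w ≤ g ∧ w ≤ g' ∧
        ∀ q : ℕ, q * a ≤ 5 * q * w + 6 * q := by
    intro g g' w r h1 h2 h3 h4 h5
    refine ⟨g, g', w, h1, h2, h3, h4, fun q => ?_⟩
    calc q * a ≤ q * (5 * w + 6) := Nat.mul_le_mul_left q h5
      _ = _ := by ring
  have h : a % 5 = 0 ∨ a % 5 = 1 ∨ a % 5 = 2 ∨ a % 5 = 3 ∨ a % 5 = 4 := by omega
  rcases h with h | h | h | h | h
  · exact key (a / 5) (a / 5) (a / 5) 0 (by omega) (by omega) (by omega) (by omega) (by omega)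
  · exact key (a / 5 + 2) (a / 5 - 1) (a / 5 - 1) 0 (by omega) (by omega) (by omega) (by omega)
      (by omega)
  · exact key (a / 5 + 1) (a / 5) (a / 5) 0 (by omega) (by omega) (by omega) (by omega) (by omega)
  · exact key (a / 5) (a / 5 + 1) (a / 5) 0 (by omega) (by omega) (by omega) (by omega) (by omega)
  · exact key (a / 5 + 2) (a / 5) (a / 5) 0 (by omega) (by omega) (by omega) (by omega) (by omega)

/-- Explicit thresholds. -/
lemma const23 (a q M : ℕ) (ha : 7 ≤ a) (hq : 1 ≤ q)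
    (hM : 8000 * (q : ℝ) ^ 4 * Real.log (10 * a * q) ≤ M) :
    ∃ θ Λ : ℕ, 1 ≤ θ ∧ 2 * (Λ + 2 * (6 * q)) + (θ + 2 * (6 * q)) ≤ M ∧
      (a : ℝ) ^ 2 * ((5 * q : ℕ) : ℝ) ^ 2 *
        (2 * (1 - 1 / (2 * ((5 * q : ℕ) : ℝ) ^ 2)) ^ θ) +
      (a : ℝ) ^ 2 * ((5 * q : ℕ) : ℝ) ^ 2 *
        (2 ^ (θ + 2 * (6 * q)) * (1 - 1 / (2 * ((5 * q : ℕ) : ℝ) ^ 2)) ^ Λ) < 1 := by
  have haR : (7 : ℝ) ≤ a := by exact_mod_cast ha
  have hqR : (1 : ℝ) ≤ q := by exact_mod_cast hq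
  have hq0 : (0 : ℝ) < q := by linarith
  have ha0 : (0 : ℝ) < a := by linarith
  set T : ℝ := Real.log (10 * a * q) with hT
  have h70 : (70 : ℝ) ≤ 10 * a * q := by nlinarith
  have hexpT : Real.exp T = 10 * a * q := Real.exp_log (by positivity)
  have hT4 : 4 ≤ T := by
    rw [hT, Real.le_log_iff_exp_le (by positivity)]
    have h1 : Real.exp 4 = Real.exp 1 ^ 4 := by
      rw [← Real.exp_nat_mul]
      norm_num
    have h2 : Real.exp 1 < 2.7182818286 := Real.exp_one_lt_d9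
    have h3 : Real.exp 1 ^ 4 ≤ 2.7182818286 ^ 4 :=
      pow_le_pow_left₀ (Real.exp_pos 1).le h2.le 4
    rw [h1]
    refine h3.trans (le_trans ?_ h70)
    norm_num
  set x : ℝ := 1 - 1 / (2 * ((5 * q : ℕ) : ℝ) ^ 2) with hx
  have hxq : x = 1 - 1 / (50 * (q : ℝ) ^ 2) := by
    rw [hx]
    push_cast
    congr 2
    ring
  have hx0 : 0 ≤ x := by
    rw [hxq, sub_nonneg, div_le_one (by positivity)]
    nlinarith
  have hxe : ∀ m : ℕ, x ^ m ≤ Real.exp (-(m / (50 * (q : ℝ) ^ 2))) := by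
    intro m
    have h1 : x ≤ Real.exp (-(1 / (50 * (q : ℝ) ^ 2))) := by
      have h2 := Real.add_one_le_exp (-(1 / (50 * (q : ℝ) ^ 2)))
      rw [hxq]
      linarith
    have h2 := pow_le_pow_left₀ hx0 h1 m
    rw [← Real.exp_nat_mul] at h2
    refine h2.trans (le_of_eq ?_)
    congr 1
    ring
  have hqT : (1 : ℝ) ≤ (q : ℝ) ^ 2 := one_le_pow₀ hqR
  have hq2 : (q : ℝ) ≤ (q : ℝ) ^ 2 := by nlinarith
  have hq24 : (q : ℝ) ^ 2 ≤ (q : ℝ) ^ 4 := by nlinarith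
  set θ : ℕ := ⌈100 * (q : ℝ) ^ 2 * T⌉₊ with hθ
  set Λ : ℕ := ⌈3700 * (q : ℝ) ^ 4 * T⌉₊ with hΛ
  have hθ1 : 100 * (q : ℝ) ^ 2 * T ≤ θ := Nat.le_ceil _
  have hθ2 : (θ : ℝ) < 100 * (q : ℝ) ^ 2 * T + 1 := Nat.ceil_lt_add_one (by positivity)
  have hΛ1 : 3700 * (q : ℝ) ^ 4 * T ≤ Λ := Nat.le_ceil _
  have hΛ2 : (Λ : ℝ) < 3700 * (q : ℝ) ^ 4 * T + 1 := Nat.ceil_lt_add_one (by positivity)
  have hq2T : 4 * (q : ℝ) ^ 2 ≤ (q : ℝ) ^ 2 * T := by nlinarith
  have hq24T : (q : ℝ) ^ 2 * T ≤ (q : ℝ) ^ 4 * T :=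
    mul_le_mul_of_nonneg_right hq24 (by linarith)
  refine ⟨θ, Λ, ?_, ?_, ?_⟩
  · have h1 : (1 : ℝ) ≤ θ := by nlinarith
    exact_mod_cast h1
  · have h1 : ((2 * (Λ + 2 * (6 * q)) + (θ + 2 * (6 * q)) : ℕ) : ℝ) ≤ (M : ℝ) := by
      push_cast
      refine le_trans ?_ hM
      nlinarith
    exact_mod_cast h1
  · have h1 : (a : ℝ) ^ 2 * ((5 * q : ℕ) : ℝ) ^ 2 = Real.exp (2 * T) / 4 := by
      have h2 : Real.exp (2 * T) = (10 * a * q) ^ 2 := by
        rw [← hexpT, ← Real.exp_nat_mul]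
        norm_num
      rw [h2]
      push_cast
      ring
    have h2 : (a : ℝ) ^ 2 * ((5 * q : ℕ) : ℝ) ^ 2 * (2 * x ^ θ) ≤ 1 / 2 := by
      rw [h1]
      have h3 : x ^ θ ≤ Real.exp (-(2 * T)) := by
        refine (hxe θ).trans (Real.exp_le_exp.2 ?_)
        rw [neg_le_neg_iff, le_div_iff₀ (by positivity)]
        linarith
      have h4 : Real.exp (2 * T) * Real.exp (-(2 * T)) = 1 := by
        rw [← Real.exp_add]
        simp
      have h5 : 0 < Real.exp (2 * T) := Real.exp_pos _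
      calc Real.exp (2 * T) / 4 * (2 * x ^ θ) ≤
            Real.exp (2 * T) / 4 * (2 * Real.exp (-(2 * T))) := by gcongr
        _ = Real.exp (2 * T) * Real.exp (-(2 * T)) / 2 := by ring
        _ = 1 / 2 := by rw [h4]
    have h3 : (a : ℝ) ^ 2 * ((5 * q : ℕ) : ℝ) ^ 2 * (2 ^ (θ + 2 * (6 * q)) * x ^ Λ) ≤ 1 / 4 := by
      rw [h1]
      have h4 : (2 : ℝ) ^ (θ + 2 * (6 * q)) = Real.exp ((θ + 2 * (6 * q)) * Real.log 2) := by
        have h5 : ((θ : ℝ) + 2 * (6 * q)) = ((θ + 2 * (6 * q) : ℕ) : ℝ) := by push_cast; ring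
        rw [h5, Real.exp_nat_mul, Real.exp_log (by norm_num)]
      have h6 : (2 : ℝ) ^ (θ + 2 * (6 * q)) * x ^ Λ ≤ Real.exp (-(2 * T)) := by
        rw [h4]
        calc Real.exp ((θ + 2 * (6 * q)) * Real.log 2) * x ^ Λ ≤
              Real.exp ((θ + 2 * (6 * q)) * Real.log 2) *
                Real.exp (-(Λ / (50 * (q : ℝ) ^ 2))) := by
              gcongr
              exact hxe Λ
          _ = Real.exp ((θ + 2 * (6 * q)) * Real.log 2 + -(Λ / (50 * (q : ℝ) ^ 2))) := by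
              rw [Real.exp_add]
          _ ≤ _ := by
              apply Real.exp_le_exp.2
              have h7 : 74 * (q : ℝ) ^ 2 * T ≤ Λ / (50 * (q : ℝ) ^ 2) := by
                rw [le_div_iff₀ (by positivity)]
                nlinarith
              have h8 : Real.log 2 < 0.6931471808 := Real.log_two_lt_d9
              have h9 : 0 < Real.log 2 := Real.log_pos (by norm_num)
              have h10 : ((θ : ℝ) + 2 * (6 * q)) * Real.log 2 ≤
                  (100 * (q : ℝ) ^ 2 * T + 1 + 12 * q) * 0.6931471808 := by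
                apply mul_le_mul _ h8.le h9.le (by positivity)
                linarith
              nlinarith
      have h5 : Real.exp (2 * T) * Real.exp (-(2 * T)) = 1 := by
        rw [← Real.exp_add]
        simp
      calc Real.exp (2 * T) / 4 * (2 ^ (θ + 2 * (6 * q)) * x ^ Λ) ≤
            Real.exp (2 * T) / 4 * Real.exp (-(2 * T)) := by gcongr
        _ = Real.exp (2 * T) * Real.exp (-(2 * T)) / 4 := by ring
        _ = 1 / 4 := by rw [h5]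
    linarith

end Vale.Agent.P181.T3
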