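import Vale.Agent.P181.H626.Main23
import Vale.Agent.P181.H626.Comb
import Vale.Agent.P181.H626.Const23
import Vale.Agent.P181.H54.Struct
import Vale.Agent.P181.H530.Alt2
import Vale.Agent.P181.H179.P8

/-!
P181, the three-row extension of the power map theorem for every `a ≥ 7` and every `q ≥ 1`.
-/

set_option autoImplicit false

open scoped TensorProduct

namespace Vale.Agent.P181.T3

open Vale.Agent.P181 Vale.Agent.P181.H280 Vale.Agent.P181.H179

variable {n : ℕ}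

/-- The power map is injective on all highest weight vectors with `λ_1 ≤ 3 q a - M` or
`λ_(a-1) ≥ M`. -/
theorem powMap_three {a q M : ℕ} (ha : 7 ≤ a) (hq : 1 ≤ q)
    (hM : 8000 * (q : ℝ) ^ 4 * Real.log (10 * a * q) ≤ M) (lam : Fin (n + 1) → ℕ)
    (hlam : (∀ m, lam m + M ≤ 3 * (q * a)) ∨
      (a ≤ n + 2 ∧ ∀ m : Fin (n + 1), (m : ℕ) + 1 < a → M ≤ lam m))
    (x : Sym[ℂ]^a (Sym[ℂ]^(q * a) (Fin (n + 1) → ℂ)))
    (hx : x ∈ hwSpace lam (plethAct a (q * a) (n + 1)))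
    (hx0 : powMap a q (Fin (n + 1) → ℂ) x = 0) : x = 0 := by
  obtain ⟨g, g', w, hah, hw, hg, hg', he⟩ := sizes23 a ha
  obtain ⟨θ, Λ, hθ, hMM, hnum⟩ := const23 a q M ha hq hM
  refine inj23 struct comb alt2 (by omega) hq hθ hah hw hg hg' (he q) hnum lam ?_ x hx hx0
  rcases hlam with h | ⟨han, h⟩
  · left
    have h0 := h 0
    refine ⟨3 * (q * a) - M, fun m => ?_, ?_⟩
    · have := h m
      omega
    · omega
  · right
    exact ⟨han, fun m hm => hMM.trans (h m hm)⟩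

theorem three {a q M : ℕ} (ha : 7 ≤ a) (hq : 1 ≤ q)
    (hM : 8000 * (q : ℝ) ^ 4 * Real.log (10 * a * q) ≤ M) (lam : Fin (n + 1) → ℕ)
    (hlam : (∀ m, lam m + M ≤ 3 * (q * a)) ∨
      (a ≤ n + 2 ∧ ∀ m : Fin (n + 1), (m : ℕ) + 1 < a → M ≤ lam m)) :
    plethMult a (q * a) (n + 1) lam ≤ plethMult (q * a) a (n + 1) lam :=
  finrank_le_of_inj (powMap a q (Fin (n + 1) → ℂ)) _ _ (fun x hx => powMap_hwSpace lam x hx)
    (fun x hx h0 => powMap_three ha hq hM lam hlam x hx h0)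

/-- Propagation in `b`. -/
theorem three_prop {a q M : ℕ} (ha : 7 ≤ a) (hq : 1 ≤ q)
    (hM : 8000 * (q : ℝ) ^ 4 * Real.log (10 * a * q) ≤ M) (k : ℕ) (lam : Fin (n + 1) → ℕ)
    (hlam : ∀ i, i ≠ 0 → lam i ≤ q * a)
    (h0 : (lam 0 + M ≤ 3 * (q * a) + a * k ∧ ∀ i, i ≠ 0 → lam i + M ≤ 3 * (q * a)) ∨
      (a ≤ n + 2 ∧ a * k + M ≤ lam 0 ∧
        ∀ i : Fin (n + 1), i ≠ 0 → (i : ℕ) + 1 < a → M ≤ lam i)) :
    plethMult a (q * a + k) (n + 1) lam ≤ plethMult (q * a + k) a (n + 1) lam := by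
  apply reduction a (q * a) k lam hlam
  intro c hc
  apply three ha hq hM
  rcases h0 with ⟨h0, h1⟩ | ⟨han, h0, h1⟩
  · left
    intro m
    by_cases hm : m = 0
    · subst hm
      rw [Function.update_self]
      omega
    · rw [Function.update_of_ne hm]
      exact h1 m hm
  · right
    refine ⟨han, fun m hma => ?_⟩
    by_cases hm : m = 0
    · subst hm
      rw [Function.update_self]
      omega
    · rw [Function.update_of_ne hm]
      exact h1 m hm hma

end Vale.Agent.P181.T3
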