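import Mathlib.Tactic
import Mathlib.Analysis.SpecialFunctions.Log.Basic
import Mathlib.Analysis.Complex.ExponentialBounds

/-!
P181, general number of rows: the thresholds.
-/

set_option autoImplicit false

namespace Vale.Agent.P181.T3

open Finset

/-- Growth of the thresholds. -/
def growth (L n : ℕ) : ℕ := ∏ j ∈ range n, ((j + 3) * (j + 2) * L)

lemma growth_pos {L : ℕ} (hL : 1 ≤ L) (n : ℕ) : 1 ≤ growth L n := by
  rw [growth]
  apply Finset.one_le_prod'
  intro j _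
  exact Nat.mul_pos (by positivity) hL

lemma one_sub_pow_le {Q : ℕ} (hQ : 1 ≤ Q) (m : ℕ) :
    (1 - 1 / (2 * (Q : ℝ) ^ 2)) ^ m ≤ Real.exp (-(m / (2 * (Q : ℝ) ^ 2))) := by
  have hQR : (1 : ℝ) ≤ Q := by exact_mod_cast hQ
  have h0 : 0 ≤ 1 - 1 / (2 * (Q : ℝ) ^ 2) := by
    rw [sub_nonneg, div_le_one (by positivity)]
    nlinarith
  have h1 : 1 - 1 / (2 * (Q : ℝ) ^ 2) ≤ Real.exp (-(1 / (2 * (Q : ℝ) ^ 2))) := by
    have h2 := Real.add_one_le_exp (-(1 / (2 * (Q : ℝ) ^ 2)))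
    linarith
  have h2 := pow_le_pow_left₀ h0 h1 m
  rw [← Real.exp_nat_mul] at h2
  refine h2.trans (le_of_eq ?_)
  congr 1
  ring

/-- Thresholds for `s` rows, linear in `log a`. -/
theorem constS (s Q e : ℕ) (hs : 1 ≤ s) (hQ : 1 ≤ Q) : ∃ C : ℕ, ∀ a : ℕ, 3 ≤ a → ∀ X : ℕ,
    (C : ℝ) * Real.log a ≤ X → ∃ (A L : ℕ) (θ : ℕ → ℕ), 1 ≤ A ∧ 2 * e ≤ A ∧ 1 ≤ L ∧ 2 * A ≤ θ 2 ∧
      (∀ r, 2 ≤ r → A ≤ L * θ r ∧ 2 * e ≤ L * θ r ∧ (r + 1) * r * (L * θ r) ≤ θ (r + 1)) ∧
      θ (s + 1) ≤ 2 * X ∧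
      ∑ z ∈ Finset.Icc 1 s, (a : ℝ) ^ 2 * (Q : ℝ) ^ 2 * (2 ^ (if z = 1 then 0 else θ z) *
        (1 - 1 / (2 * (Q : ℝ) ^ 2)) ^ ((if z = 1 then A else L * θ z) - 2 * e)) < 1 := by
  have hQR : (1 : ℝ) ≤ Q := by exact_mod_cast hQ
  have hsR : (1 : ℝ) ≤ s := by exact_mod_cast hs
  have hQ0 : (0 : ℝ) < Q := by linarith
  set L : ℕ := 4 * Q ^ 2 + 1 with hL
  have hL1 : 1 ≤ L := by omega
  set G : ℕ := growth L (s - 1) with hG
  set c0 : ℝ := 2 * e + 1 + 2 * (Q : ℝ) ^ 2 * Real.log (2 * (s + 1) * (Q : ℝ) ^ 2) +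
    4 * (Q : ℝ) ^ 2 with hc0
  have hlogpos : 0 ≤ Real.log (2 * (s + 1) * (Q : ℝ) ^ 2) := by
    apply Real.log_nonneg
    nlinarith
  have hc0pos : 0 ≤ c0 := by positivity
  refine ⟨G * ⌈c0⌉₊, ?_⟩
  intro a ha X hX
  have haR : (3 : ℝ) ≤ a := by exact_mod_cast ha
  have ha0 : (0 : ℝ) < a := by linarith
  have hlog1 : 1 ≤ Real.log a := by
    rw [Real.le_log_iff_exp_le ha0]
    have := Real.exp_one_lt_d9
    linarith
  set R : ℝ := 2 * (s + 1) * (Q : ℝ) ^ 2 * (a : ℝ) ^ 2 with hR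
  have hR0 : 0 < R := by positivity
  have hlogR : Real.log R = Real.log (2 * (s + 1) * (Q : ℝ) ^ 2) + 2 * Real.log a := by
    rw [hR, Real.log_mul (by positivity) (by positivity), Real.log_pow]
    norm_num
  have hlogR0 : 0 ≤ Real.log R := by
    rw [hlogR]
    linarith
  set m0 : ℕ := ⌈2 * (Q : ℝ) ^ 2 * Real.log R⌉₊ with hm0
  have hm01 : 2 * (Q : ℝ) ^ 2 * Real.log R ≤ m0 := Nat.le_ceil _
  have hm02 : (m0 : ℝ) < 2 * (Q : ℝ) ^ 2 * Real.log R + 1 := Nat.ceil_lt_add_one (by positivity)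
  have hlogRpos : 0 < Real.log R := by
    rw [hlogR]
    linarith
  have hm0pos : 1 ≤ m0 := by
    rw [hm0, Nat.one_le_ceil_iff]
    positivity
  set A : ℕ := 2 * e + m0 with hA
  set θ : ℕ → ℕ := fun r => 2 * A * growth L (r - 2) with hθ
  have hθA : ∀ r, 2 * A ≤ θ r := fun r => by
    simp only [hθ]
    exact Nat.le_mul_of_pos_right _ (growth_pos hL1 _)
  have hexpR : Real.exp (-Real.log R) = 1 / R := by
    rw [Real.exp_neg, Real.exp_log hR0, one_div]
  have haQ : (a : ℝ) ^ 2 * (Q : ℝ) ^ 2 * (1 / R) = 1 / (2 * (s + 1)) := by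
    rw [hR]
    field_simp
  refine ⟨A, L, θ, by omega, by omega, hL1, hθA 2, ?_, ?_, ?_⟩
  · intro r hr
    have h1 := hθA r
    have h2 : θ r ≤ L * θ r := Nat.le_mul_of_pos_left _ hL1
    refine ⟨by omega, by omega, ?_⟩
    obtain ⟨n, rfl⟩ := Nat.exists_eq_add_of_le' hr
    simp only [hθ]
    rw [show n + 2 + 1 - 2 = n + 1 from by omega, show n + 2 - 2 = n from by omega, growth,
      growth, Finset.prod_range_succ]
    apply le_of_eq
    ring
  · have h1 : ((θ (s + 1) : ℕ) : ℝ) ≤ ((2 * X : ℕ) : ℝ) := by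
      simp only [hθ]
      rw [show s + 1 - 2 = s - 1 from by omega, ← hG]
      push_cast
      have h2 : (A : ℝ) ≤ c0 * Real.log a := by
        rw [hA, hc0]
        push_cast
        rw [hlogR] at hm02
        have h3 : 0 ≤ 2 * (Q : ℝ) ^ 2 * Real.log (2 * (s + 1) * (Q : ℝ) ^ 2) := by positivity
        have h4 : (0 : ℝ) ≤ e := Nat.cast_nonneg e
        nlinarith
      have h3 : c0 ≤ (⌈c0⌉₊ : ℝ) := Nat.le_ceil _
      have h4 : (0 : ℝ) ≤ G := Nat.cast_nonneg G
      have h5 : (A : ℝ) * G ≤ X := by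
        calc (A : ℝ) * G ≤ (c0 * Real.log a) * G := mul_le_mul_of_nonneg_right h2 h4
          _ ≤ ((⌈c0⌉₊ : ℝ) * Real.log a) * G := by
              apply mul_le_mul_of_nonneg_right _ h4
              apply mul_le_mul_of_nonneg_right h3
              linarith
          _ = ((G * ⌈c0⌉₊ : ℕ) : ℝ) * Real.log a := by
              push_cast
              ring
          _ ≤ X := hX
      linarith
    exact_mod_cast h1
  · have hterm : ∀ z ∈ Finset.Icc 1 s, (a : ℝ) ^ 2 * (Q : ℝ) ^ 2 *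
        (2 ^ (if z = 1 then 0 else θ z) *
        (1 - 1 / (2 * (Q : ℝ) ^ 2)) ^ ((if z = 1 then A else L * θ z) - 2 * e)) ≤
        1 / (2 * (s + 1)) := by
      intro z hz
      rw [← haQ]
      apply mul_le_mul_of_nonneg_left _ (by positivity)
      rw [← hexpR]
      by_cases hz1 : z = 1
      · rw [if_pos hz1, if_pos hz1, pow_zero, one_mul]
        refine (one_sub_pow_le hQ _).trans (Real.exp_le_exp.2 ?_)
        rw [neg_le_neg_iff, le_div_iff₀ (by positivity)]
        have h1 : A - 2 * e = m0 := by omega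
        rw [h1]
        linarith
      · rw [if_neg hz1, if_neg hz1]
        have h1 := hθA z
        have h2 : 4 * Q ^ 2 * θ z ≤ L * θ z - 2 * e := by
          have h3 : L * θ z = 4 * Q ^ 2 * θ z + θ z := by
            rw [hL]
            ring
          omega
        have h2R : 4 * (Q : ℝ) ^ 2 * θ z ≤ ((L * θ z - 2 * e : ℕ) : ℝ) := by exact_mod_cast h2
        have h4 : (2 : ℝ) ^ (θ z) ≤ Real.exp (θ z) := by
          have h5 : (2 : ℝ) ≤ Real.exp 1 := by
            have := Real.add_one_le_exp (1 : ℝ)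
            linarith
          calc (2 : ℝ) ^ (θ z) ≤ Real.exp 1 ^ (θ z) := pow_le_pow_left₀ (by norm_num) h5 _
            _ = Real.exp (θ z) := by
                rw [← Real.exp_nat_mul, mul_one]
        have h6 : (1 - 1 / (2 * (Q : ℝ) ^ 2)) ^ (L * θ z - 2 * e) ≤ Real.exp (-(2 * θ z)) := by
          refine (one_sub_pow_le hQ _).trans (Real.exp_le_exp.2 ?_)
          rw [neg_le_neg_iff, le_div_iff₀ (by positivity)]
          linarith
        have h7 : Real.log R ≤ θ z := by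
          have h8 : ((2 * A : ℕ) : ℝ) ≤ θ z := by exact_mod_cast h1
          have h9 : Real.log R ≤ 2 * (Q : ℝ) ^ 2 * Real.log R :=
            le_mul_of_one_le_left hlogR0 (by nlinarith)
          have h10 : (m0 : ℝ) ≤ (A : ℝ) := by
            rw [hA]
            push_cast
            have : (0 : ℝ) ≤ e := Nat.cast_nonneg e
            linarith
          push_cast at h8
          have h11 : (0 : ℝ) ≤ A := Nat.cast_nonneg A
          linarith
        calc (2 : ℝ) ^ (θ z) * (1 - 1 / (2 * (Q : ℝ) ^ 2)) ^ (L * θ z - 2 * e) ≤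
              Real.exp (θ z) * Real.exp (-(2 * θ z)) := by
              apply mul_le_mul h4 h6 _ (Real.exp_pos _).le
              apply pow_nonneg
              rw [sub_nonneg, div_le_one (by positivity)]
              nlinarith
          _ = Real.exp (-(θ z : ℝ)) := by
              rw [← Real.exp_add]
              congr 1
              ring
          _ ≤ _ := Real.exp_le_exp.2 (by linarith)
    calc _ ≤ ∑ _z ∈ Finset.Icc 1 s, (1 / (2 * ((s : ℝ) + 1))) := Finset.sum_le_sum hterm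
      _ = s * (1 / (2 * ((s : ℝ) + 1))) := by
          rw [Finset.sum_const, Nat.card_Icc, nsmul_eq_mul, Nat.add_sub_cancel]
      _ < 1 := by
          rw [mul_one_div, div_lt_one (by positivity)]
          linarith

end Vale.Agent.P181.T3
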