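import Vale.Agent.P181.H644.ConstS
import Vale.Agent.P181.H626.ConstS

/-!
P181, power map theorem for `λ_1 ≤ (s + 1) q a - X`: explicit constants, uniform in `s` and `q`.
-/

set_option autoImplicit false

namespace Vale.Agent.P181.T3

open Finset

/-- Number of pieces of a form. -/
def kk (s q : ℕ) : ℕ := s * (s - 1) * (q + 1)

lemma two_kk_le {s q : ℕ} (hs : 2 ≤ s) (hq : 1 ≤ q) : 2 * kk s q + 1 ≤ 4 * s ^ 2 * q := by
  obtain ⟨t, rfl⟩ := Nat.exists_eq_add_of_le' hs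
  obtain ⟨p, rfl⟩ := Nat.exists_eq_add_of_le' hq
  have h1 : t + 2 - 1 = t + 1 := by omega
  rw [kk, h1]
  nlinarith [Nat.zero_le (t * p), Nat.zero_le (t * t * p), Nat.zero_le t, Nat.zero_le p]

lemma growth_le {L s : ℕ} (hs : 1 ≤ s) : growth L (s - 1) ≤ ((s + 1) * s * L) ^ (s - 1) := by
  rw [growth]
  calc ∏ j ∈ range (s - 1), ((j + 3) * (j + 2) * L) ≤ ∏ _j ∈ range (s - 1), ((s + 1) * s * L) := by
        apply Finset.prod_le_prod'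
        intro j hj
        rw [Finset.mem_range] at hj
        exact Nat.mul_le_mul_right _ (Nat.mul_le_mul (by omega) (by omega))
    _ = _ := by
        rw [Finset.prod_const, Finset.card_range]

lemma exp_five_le : Real.exp 5 ≤ 256 := by
  have h6 : Real.exp 5 = Real.exp 1 ^ 5 := by
    rw [← Real.exp_nat_mul]
    norm_num
  have h7 : Real.exp 1 ^ 5 ≤ 2.7182818286 ^ 5 :=
    pow_le_pow_left₀ (Real.exp_pos 1).le Real.exp_one_lt_d9.le 5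
  rw [h6]
  refine h7.trans ?_
  norm_num

lemma log_boundE {s q Q a : ℝ} (hs : 2 ≤ s) (hq : 1 ≤ q) (hQ0 : 0 < Q)
    (hQ : Q ≤ 4 * s ^ 2 * q ^ 2) (ha : 16 * s ^ 4 * q ^ 2 ≤ a) :
    Real.log (2 * (s + 1) * a * Q) ≤ 2 * Real.log a := by
  have hs0 : 0 < s := by linarith
  have hq0 : 0 < q := by linarith
  have ha0 : 0 < a := lt_of_lt_of_le (by positivity) ha
  have h7 : 2 * (s + 1) ≤ 3 * s := by linarith
  have h8 : 2 * (s + 1) * Q ≤ a := by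
    refine le_trans ?_ ha
    calc 2 * (s + 1) * Q ≤ (3 * s) * (4 * s ^ 2 * q ^ 2) :=
          mul_le_mul h7 hQ hQ0.le (by positivity)
      _ = 12 * (s ^ 3 * q ^ 2) := by ring
      _ ≤ 16 * (s * (s ^ 3 * q ^ 2)) := by
          have h9 : 0 ≤ s ^ 3 * q ^ 2 := by positivity
          have h10 : 1 * (s ^ 3 * q ^ 2) ≤ s * (s ^ 3 * q ^ 2) :=
            mul_le_mul_of_nonneg_right (by linarith) h9
          linarith
      _ = 16 * s ^ 4 * q ^ 2 := by ring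
  have h9 : 2 * Real.log a = Real.log (a ^ 2) := by
    rw [Real.log_pow]
    norm_num
  rw [h9]
  apply Real.log_le_log (by positivity)
  calc 2 * (s + 1) * a * Q = (2 * (s + 1) * Q) * a := by ring
    _ ≤ a * a := mul_le_mul_of_nonneg_right h8 ha0.le
    _ = _ := by ring

lemma boundA {s q Q e a A : ℝ} (hs : 2 ≤ s) (hq : 1 ≤ q) (hQ1 : 1 ≤ Q)
    (hQ : Q ≤ 4 * s ^ 2 * q ^ 2) (he : e ≤ 16 * s ^ 4 * q ^ 3) (ha : 16 * s ^ 4 * q ^ 2 ≤ a)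
    (hA : A ≤ 2 * e + 4 * Q ^ 2 * Real.log (2 * (s + 1) * a * Q) + 1) :
    A ≤ (200 * s ^ 6 * q ^ 4) * Real.log a := by
  have hs0 : 0 < s := by linarith
  have hq0 : 0 < q := by linarith
  have hs4 : (16 : ℝ) ≤ s ^ 4 := by
    have := pow_le_pow_left₀ (by norm_num) hs 4
    linarith
  have hq2 : (1 : ℝ) ≤ q ^ 2 := one_le_pow₀ hq
  have ha256 : (256 : ℝ) ≤ a := by
    have h1 : (16 : ℝ) * 1 ≤ s ^ 4 * q ^ 2 := mul_le_mul hs4 hq2 (by norm_num) (by positivity)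
    linarith
  have ha0 : 0 < a := by linarith
  obtain ⟨T, hT⟩ : ∃ T, T = Real.log a := ⟨_, rfl⟩
  have hlog5 : 5 ≤ T := by
    rw [hT, Real.le_log_iff_exp_le ha0]
    exact exp_five_le.trans ha256
  have hlog := log_boundE hs hq (by linarith) hQ ha
  rw [← hT] at hlog ⊢
  have hlog0 : 0 ≤ Real.log (2 * (s + 1) * a * Q) := by
    apply Real.log_nonneg
    have h6 : (1 : ℝ) ≤ 2 * (s + 1) := by linarith
    have h7 : (1 : ℝ) ≤ 2 * (s + 1) * a := one_le_mul_of_one_le_of_one_le h6 (by linarith)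
    exact one_le_mul_of_one_le_of_one_le h7 hQ1
  have hQ2 : Q ^ 2 ≤ 16 * s ^ 4 * q ^ 4 := by
    calc Q ^ 2 ≤ (4 * s ^ 2 * q ^ 2) ^ 2 := pow_le_pow_left₀ (by linarith) hQ 2
      _ = _ := by ring
  have h6 : 4 * Q ^ 2 * Real.log (2 * (s + 1) * a * Q) ≤ 4 * (16 * s ^ 4 * q ^ 4) * (2 * T) := by
    apply mul_le_mul _ hlog hlog0 (by positivity)
    linarith
  obtain ⟨Z, hZ⟩ : ∃ Z, Z = s ^ 4 * q ^ 4 := ⟨_, rfl⟩
  have h7 : (1 : ℝ) ≤ Z := by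
    rw [hZ]
    exact one_le_mul_of_one_le_of_one_le (by linarith) (one_le_pow₀ hq)
  have h8 : s ^ 4 * q ^ 3 ≤ Z := by
    rw [hZ]
    exact mul_le_mul_of_nonneg_left (pow_le_pow_right₀ hq (by norm_num)) (by positivity)
  have h9 : 5 * Z ≤ Z * T := by
    have := mul_le_mul_of_nonneg_left hlog5 (by linarith : (0 : ℝ) ≤ Z)
    linarith
  have h10 : Z * T ≤ s ^ 6 * q ^ 4 * T := by
    apply mul_le_mul_of_nonneg_right _ (by linarith)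
    rw [hZ]
    exact mul_le_mul_of_nonneg_right (pow_le_pow_right₀ (by linarith) (by norm_num))
      (by positivity)
  have h11 : 4 * (16 * s ^ 4 * q ^ 4) * (2 * T) = 128 * (Z * T) := by
    rw [hZ]
    ring
  have h12 : 2 * e ≤ 32 * Z := by linarith
  have h13 : 200 * s ^ 6 * q ^ 4 * T = 200 * (s ^ 6 * q ^ 4 * T) := by ring
  rw [h13]
  linarith

lemma growE {s q L : ℕ} (hs : 2 ≤ s) (hL : (L : ℝ) ≤ 128 * ((s : ℝ) ^ 4 * (q : ℝ) ^ 4)) :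
    ((growth L (s - 1) : ℕ) : ℝ) ≤ (200 * (s : ℝ) ^ 6 * (q : ℝ) ^ 4) ^ (s - 1) := by
  have hsR : (2 : ℝ) ≤ s := by exact_mod_cast hs
  have h6 : ((growth L (s - 1) : ℕ) : ℝ) ≤ (((s : ℝ) + 1) * s * L) ^ (s - 1) := by
    exact_mod_cast growth_le (L := L) (by omega : 1 ≤ s)
  refine h6.trans (pow_le_pow_left₀ (by positivity) ?_ _)
  have h8 : ((s : ℝ) + 1) * s ≤ (3 / 2) * (s : ℝ) ^ 2 := by nlinarith
  calc ((s : ℝ) + 1) * s * L ≤ ((3 / 2) * (s : ℝ) ^ 2) * (128 * ((s : ℝ) ^ 4 * (q : ℝ) ^ 4)) :=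
        mul_le_mul h8 hL (Nat.cast_nonneg _) (by positivity)
    _ = 192 * ((s : ℝ) ^ 6 * (q : ℝ) ^ 4) := by ring
    _ ≤ 200 * ((s : ℝ) ^ 6 * (q : ℝ) ^ 4) := by
        have h9 : 0 ≤ (s : ℝ) ^ 6 * (q : ℝ) ^ 4 := by positivity
        linarith
    _ = _ := by ring

/-- Explicit thresholds. -/
theorem constE {s q a X : ℕ} (hs : 2 ≤ s) (hq : 1 ≤ q) (ha : 16 * s ^ 4 * q ^ 2 ≤ a)
    (hX : (200 * (s : ℝ) ^ 6 * (q : ℝ) ^ 4) ^ s * Real.log a ≤ X) :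
    ∃ (g g' w e A L : ℕ) (θ : ℕ → ℕ),
      a = kk s q * g + (kk s q + 1) * g' ∧ 1 ≤ w ∧ w ≤ g ∧ w ≤ g' ∧
      q * a ≤ q * (2 * kk s q + 1) * w + e ∧
      (∀ r, 2 ≤ r → r ≤ s → A ≤ L * θ r ∧ (r + 1) * r * (L * θ r) ≤ θ (r + 1)) ∧
      (∀ r, 2 * A ≤ θ r) ∧
      ((a : ℝ) ^ 2 * ((q * (2 * kk s q + 1) : ℕ) : ℝ) ^ 2 *
          (1 - 1 / (2 * ((q * (2 * kk s q + 1) : ℕ) : ℝ) ^ 2)) ^ (A - 2 * e) +
        ∑ r ∈ Finset.Icc 2 s, (a : ℝ) ^ 2 * ((q * (2 * kk s q + 1) : ℕ) : ℝ) ^ 2 *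
          (2 ^ (θ r) * (1 - 1 / (2 * ((q * (2 * kk s q + 1) : ℕ) : ℝ) ^ 2)) ^ (L * θ r - 2 * e))
          < 1) ∧
      θ (s + 1) ≤ 2 * X := by
  obtain ⟨K, hK⟩ : ∃ K, K = 2 * kk s q + 1 := ⟨_, rfl⟩
  have hK1 : K ≤ 4 * s ^ 2 * q := by
    rw [hK]
    exact two_kk_le hs hq
  have hK0 : 1 ≤ K := by omega
  obtain ⟨Q, hQ⟩ : ∃ Q, Q = q * K := ⟨_, rfl⟩
  have hQ1 : 1 ≤ Q := by
    rw [hQ]
    exact Nat.mul_pos hq hK0
  have hKa : K ^ 2 ≤ a := by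
    refine le_trans ?_ ha
    calc K ^ 2 ≤ (4 * s ^ 2 * q) ^ 2 := Nat.pow_le_pow_left hK1 2
      _ = 16 * s ^ 4 * q ^ 2 := by ring
  obtain ⟨g, g', w, h1, h2, h3, h4, h5⟩ := TS.sizesK (kk s q) a (by rw [← hK]; exact hKa)
  obtain ⟨e, he⟩ : ∃ e, e = q * K ^ 2 := ⟨_, rfl⟩
  obtain ⟨L, hL⟩ : ∃ L, L = 8 * Q ^ 2 := ⟨_, rfl⟩
  have hL1 : 1 ≤ L := by
    rw [hL]
    have : 1 ≤ Q ^ 2 := Nat.one_le_pow _ _ hQ1
    omega
  have hsR : (2 : ℝ) ≤ s := by exact_mod_cast hs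
  have hqR : (1 : ℝ) ≤ q := by exact_mod_cast hq
  have hQR : (1 : ℝ) ≤ Q := by exact_mod_cast hQ1
  have hQle : Q ≤ 4 * s ^ 2 * q ^ 2 := by
    rw [hQ]
    calc q * K ≤ q * (4 * s ^ 2 * q) := Nat.mul_le_mul_left q hK1
      _ = _ := by ring
  have hQleR : (Q : ℝ) ≤ 4 * (s : ℝ) ^ 2 * (q : ℝ) ^ 2 := by exact_mod_cast hQle
  have hele : e ≤ 16 * s ^ 4 * q ^ 3 := by
    rw [he]
    calc q * K ^ 2 ≤ q * (4 * s ^ 2 * q) ^ 2 := Nat.mul_le_mul_left q (Nat.pow_le_pow_left hK1 2)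
      _ = _ := by ring
  have heleR : (e : ℝ) ≤ 16 * (s : ℝ) ^ 4 * (q : ℝ) ^ 3 := by exact_mod_cast hele
  have hLle : L ≤ 128 * (s ^ 4 * q ^ 4) := by
    rw [hL]
    calc 8 * Q ^ 2 ≤ 8 * (4 * s ^ 2 * q ^ 2) ^ 2 :=
          Nat.mul_le_mul_left 8 (Nat.pow_le_pow_left hQle 2)
      _ = _ := by ring
  have hLleR : (L : ℝ) ≤ 128 * ((s : ℝ) ^ 4 * (q : ℝ) ^ 4) := by exact_mod_cast hLle
  have haR : 16 * (s : ℝ) ^ 4 * (q : ℝ) ^ 2 ≤ a := by exact_mod_cast ha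
  have ha1 : 1 ≤ a := le_trans (Nat.one_le_pow _ _ hK0) hKa
  have ha1R : (1 : ℝ) ≤ a := by exact_mod_cast ha1
  have hlog0 : 0 ≤ Real.log (2 * ((s : ℝ) + 1) * a * Q) := by
    apply Real.log_nonneg
    have h6 : (1 : ℝ) ≤ 2 * ((s : ℝ) + 1) := by linarith
    have h7 : (1 : ℝ) ≤ 2 * ((s : ℝ) + 1) * a := one_le_mul_of_one_le_of_one_le h6 ha1R
    exact one_le_mul_of_one_le_of_one_le h7 hQR
  obtain ⟨A, hA⟩ : ∃ A, A = ⌈2 * (e : ℝ) + 4 * (Q : ℝ) ^ 2 *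
    Real.log (2 * ((s : ℝ) + 1) * a * Q)⌉₊ := ⟨_, rfl⟩
  have hA2 : 2 * (e : ℝ) + 4 * (Q : ℝ) ^ 2 * Real.log (2 * ((s : ℝ) + 1) * a * Q) ≤ A := by
    rw [hA]
    exact Nat.le_ceil _
  have hA3 : (A : ℝ) ≤ 2 * e + 4 * (Q : ℝ) ^ 2 * Real.log (2 * ((s : ℝ) + 1) * a * Q) + 1 := by
    rw [hA]
    exact (Nat.ceil_lt_add_one (by positivity)).le
  clear hA
  have hAR := boundA hsR hqR hQR hQleR heleR haR hA3
  have hgrow := growE (q := q) hs hLleR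
  have hθA : ∀ r : ℕ, 2 * A ≤ 2 * A * growth L (r - 2) := fun r =>
    Nat.le_mul_of_pos_right _ (growth_pos hL1 _)
  refine ⟨g, g', w, e, A, L, fun r => 2 * A * growth L (r - 2), h1, h2, h3, h4, ?_, ?_, hθA, ?_,
    ?_⟩
  · rw [he, hK]
    exact h5 q
  · intro r hr _
    constructor
    · calc A ≤ 2 * A * growth L (r - 2) := le_trans (by omega) (hθA r)
        _ ≤ L * (2 * A * growth L (r - 2)) := Nat.le_mul_of_pos_left _ (by omega)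
    · obtain ⟨m, rfl⟩ := Nat.exists_eq_add_of_le' hr
      show (m + 2 + 1) * (m + 2) * (L * (2 * A * growth L (m + 2 - 2))) ≤
        2 * A * growth L (m + 2 + 1 - 2)
      rw [show m + 2 + 1 - 2 = m + 1 from by omega, show m + 2 - 2 = m from by omega, growth,
        growth, Finset.prod_range_succ]
      apply le_of_eq
      ring
  · rw [← hK, ← hQ]
    exact TS.numS ha1 hQ1 hA2 hL hθA
  · show 2 * A * growth L (s + 1 - 2) ≤ 2 * X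
    rw [show s + 1 - 2 = s - 1 from by omega, mul_assoc]
    apply Nat.mul_le_mul_left
    have h6 : ((A * growth L (s - 1) : ℕ) : ℝ) ≤ X := by
      refine le_trans ?_ hX
      push_cast
      have h7 : (200 * (s : ℝ) ^ 6 * (q : ℝ) ^ 4) ^ s =
          (200 * (s : ℝ) ^ 6 * (q : ℝ) ^ 4) * (200 * (s : ℝ) ^ 6 * (q : ℝ) ^ 4) ^ (s - 1) := by
        rw [← pow_succ']
        congr 1
        omega
      rw [h7]
      have h8 : (0 : ℝ) ≤ (200 * (s : ℝ) ^ 6 * (q : ℝ) ^ 4) * Real.log a :=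
        le_trans (Nat.cast_nonneg A) hAR
      calc (A : ℝ) * (growth L (s - 1) : ℕ) ≤ ((200 * (s : ℝ) ^ 6 * (q : ℝ) ^ 4) * Real.log a) *
            (200 * (s : ℝ) ^ 6 * (q : ℝ) ^ 4) ^ (s - 1) :=
            mul_le_mul hAR hgrow (Nat.cast_nonneg _) h8
        _ = _ := by ring
    exact_mod_cast h6

end Vale.Agent.P181.T3
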