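import Vale.Agent.P181.Q.Kernel
import Vale.Agent.P181.H179.P9
import Vale.Agent.P181.T3.Spec

/-!
P181, three rows: row B (labelling with two families of pairs).
-/

set_option autoImplicit false

namespace Vale.Agent.P181.T3

open Finset Vale.Agent.P181.H179 Vale.Agent.P181.Q

/-- Row B. -/
theorem kernel3 : Kernel3Stmt := by
  classical
  intro a N Q w θ Λ C hQ hC hb
  haveI : NeZero Q := ⟨by omega⟩
  by_cases ha : a = 0
  · subst ha
    exact ⟨fun i => i.elim0, fun i => i.elim0, fun i => i.elim0, fun i => i.elim0⟩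
  have hQR : (1 : ℝ) ≤ Q := by exact_mod_cast hQ
  have hQ0 : (0 : ℝ) < Q := by linarith
  have haR : (1 : ℝ) ≤ a := by exact_mod_cast Nat.one_le_iff_ne_zero.2 ha
  have hQ2 : 1 / (2 * (Q : ℝ) ^ 2) ≤ 1 := by
    rw [div_le_one (by positivity)]
    have : (1 : ℝ) ≤ (Q : ℝ) ^ 2 := one_le_pow₀ hQR
    linarith
  have haQ : (1 : ℝ) ≤ (a : ℝ) ^ 2 * (Q : ℝ) ^ 2 :=
    one_le_mul_of_one_le_of_one_le (one_le_pow₀ haR) (one_le_pow₀ hQR)
  set x : ℝ := 1 - 1 / (2 * (Q : ℝ) ^ 2) with hx
  have hx0 : 0 ≤ x := by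
    rw [hx]
    linarith
  have hx1 : x ≤ 1 := by
    rw [hx]
    have : 0 ≤ 1 / (2 * (Q : ℝ) ^ 2) := by positivity
    linarith
  by_cases hw : w = 0
  · subst hw
    have hempty : ∀ i, C i = ∅ := fun i => Finset.card_eq_zero.1 (by rw [hC]; ring)
    refine ⟨fun _ _ => ⟨0, by omega⟩, ?_, ?_, ?_⟩
    · intro i k
      rw [hempty]
      rfl
    · intro i j hij h1 k k'
      exfalso
      rw [hempty, Finset.empty_inter, Finset.card_empty, Nat.le_zero] at h1
      rw [h1, pow_zero, pow_zero] at hb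
      have h2 : 0 ≤ (a : ℝ) ^ 2 * (Q : ℝ) ^ 2 * (1 * x ^ Λ) := by positivity
      linarith
    · intro i j hij h1 k k'
      exfalso
      rw [hempty, Finset.empty_inter, Finset.card_empty, Nat.le_zero] at h1
      rw [h1, pow_zero, mul_one] at hb
      have h2 : 0 ≤ (a : ℝ) ^ 2 * (Q : ℝ) ^ 2 * (2 * x ^ θ) := by positivity
      have h3 : (1 : ℝ) ≤ (2 : ℝ) ^ θ := one_le_pow₀ (by norm_num)
      have h4 : (1 : ℝ) ≤ (a : ℝ) ^ 2 * (Q : ℝ) ^ 2 * 2 ^ θ :=
        one_le_mul_of_one_le_of_one_le haQ h3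
      linarith
  let z : Fin w × Fin Q := (⟨0, by omega⟩, ⟨0, by omega⟩)
  have hE : ∀ i, Nonempty ({t // t ∈ C i} ≃ Fin w × Fin Q) := by
    intro i
    refine ⟨Fintype.equivOfCardEq ?_⟩
    rw [Fintype.card_coe, hC, Fintype.card_prod, Fintype.card_fin, Fintype.card_fin, mul_comm]
  let E : ∀ i, {t // t ∈ C i} ≃ Fin w × Fin Q := fun i => (hE i).some
  let φ : Fin a → Fin N → Fin w × Fin Q := fun i t => if h : t ∈ C i then E i ⟨t, h⟩ else z
  have hφ : ∀ i t (h : t ∈ C i), φ i t = E i ⟨t, h⟩ := fun i t h => dif_pos h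
  have hinj : ∀ i, Set.InjOn (φ i) (C i) := by
    intro i s hs t ht hst
    have hs' : s ∈ C i := hs
    have ht' : t ∈ C i := ht
    rw [hφ i s hs', hφ i t ht'] at hst
    exact congrArg Subtype.val ((E i).injective hst)
  -- sizes
  have hsize : ∀ (γ : Fin w → Fin Q) i k,
      ((C i).filter (fun t => lb (φ i) γ t = k)).card = w := by
    intro γ i k
    have h1 : ((C i).filter (fun t => lb (φ i) γ t = k)).card =
        (univ.filter (fun r : Fin w × Fin Q => r.2 + γ r.1 = k)).card := by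
      apply Finset.card_bij (fun t _ => φ i t)
      · intro t ht
        rw [Finset.mem_filter] at ht ⊢
        exact ⟨Finset.mem_univ _, ht.2⟩
      · intro s hs t ht hst
        rw [Finset.mem_filter] at hs ht
        exact hinj i hs.1 ht.1 hst
      · intro r hr
        rw [Finset.mem_filter] at hr
        refine ⟨((E i).symm r : Fin N), ?_, ?_⟩
        · rw [Finset.mem_filter]
          refine ⟨((E i).symm r).2, ?_⟩
          rw [lb, hφ i _ ((E i).symm r).2]
          simp only [Subtype.coe_eta, Equiv.apply_symm_apply]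
          exact hr.2
        · rw [hφ i _ ((E i).symm r).2]
          simp only [Subtype.coe_eta, Equiv.apply_symm_apply]
    rw [h1, Finset.card_filter, Fintype.sum_prod_type]
    have h2 : ∀ β : Fin w, ∑ p : Fin Q, (if p + γ β = k then 1 else 0) = 1 := by
      intro β
      rw [Finset.sum_eq_single (k - γ β)]
      · rw [sub_add_cancel, if_pos rfl]
      · intro p _ hp
        rw [if_neg]
        intro h'
        exact hp (by rw [← h', add_sub_cancel_right])
      · intro h
        exact absurd (Finset.mem_univ _) h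
    simp only [h2, Finset.sum_const, Finset.card_univ, Fintype.card_fin, smul_eq_mul, mul_one]
  -- patterns
  set Pr : Finset (Fin a × Fin a) := univ.filter (fun p => p.1 ≠ p.2) with hPrdef
  let cd : Fin a × Fin a → ℕ := fun p => (C p.1 ∩ C p.2).card
  let g : (Fin a × Fin a) × (Fin Q × Fin Q) → (Fin a → (Fin w → Fin Q)) → ℝ :=
    fun p ω => hbad (φ p.1.1) (φ p.1.2) (C p.1.1 ∩ C p.1.2) p.2.1 p.2.2 (ω p.1.1) (ω p.1.2)
  have hg0 : ∀ p ω, 0 ≤ g p ω := by
    intro p ω
    apply Finset.prod_nonneg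
    intro t _
    split_ifs
    · norm_num
    · exact zero_le_one
  have hcard0 : (0 : ℝ) ≤ Fintype.card (Fin a → (Fin w → Fin Q)) := Nat.cast_nonneg _
  have hgs : ∀ p : (Fin a × Fin a) × (Fin Q × Fin Q), p.1.1 ≠ p.1.2 → ∀ m : ℕ, m ≤ cd p.1 →
      ∀ z : ℝ, 0 ≤ z → ∑ ω, z * g p ω ≤
        Fintype.card (Fin a → (Fin w → Fin Q)) * (z * x ^ m) := by
    intro p hne m hm z hz
    have h1 := hbad_sum φ (C p.1.1 ∩ C p.1.2) hne ((hinj p.1.1).mono (by
        intro t ht
        exact (Finset.mem_inter.1 ht).1)) ((hinj p.1.2).mono (by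
        intro t ht
        exact (Finset.mem_inter.1 ht).2)) p.2.1 p.2.2
    have h2 : x ^ (C p.1.1 ∩ C p.1.2).card ≤ x ^ m := pow_le_pow_of_le_one hx0 hx1 hm
    calc ∑ ω, z * g p ω = z * ∑ ω : Fin a → (Fin w → Fin Q),
          hbad (φ p.1.1) (φ p.1.2) (C p.1.1 ∩ C p.1.2) p.2.1 p.2.2 (ω p.1.1) (ω p.1.2) := by
          rw [Finset.mul_sum]
      _ ≤ z * (Fintype.card (Fin a → (Fin w → Fin Q)) * x ^ (C p.1.1 ∩ C p.1.2).card) :=
          mul_le_mul_of_nonneg_left h1 hz
      _ ≤ z * (Fintype.card (Fin a → (Fin w → Fin Q)) * x ^ m) :=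
          mul_le_mul_of_nonneg_left (mul_le_mul_of_nonneg_left h2 hcard0) hz
      _ = _ := by ring
  let f : ((Fin a × Fin a) × (Fin Q × Fin Q)) × Bool → (Fin a → (Fin w → Fin Q)) → ℝ :=
    fun p ω => if p.2 then (if Λ ≤ cd p.1.1 then 2 ^ θ * g p.1 ω else 0)
      else (if θ ≤ cd p.1.1 then 2 * g p.1 ω else 0)
  let c : ((Fin a × Fin a) × (Fin Q × Fin Q)) × Bool → ℝ :=
    fun p => if p.2 then 2 ^ θ * x ^ Λ else 2 * x ^ θ
  obtain ⟨ω, hω⟩ := union_bound' ((Pr ×ˢ (univ : Finset (Fin Q × Fin Q))) ×ˢ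
      (univ : Finset Bool)) f c (by
      intro p _ ω
      rcases p with ⟨p, b⟩
      cases b
      · simp only [f, Bool.false_eq_true, if_false]
        split_ifs
        · exact mul_nonneg (by norm_num) (hg0 _ _)
        · exact le_rfl
      · simp only [f, if_true]
        split_ifs
        · exact mul_nonneg (by positivity) (hg0 _ _)
        · exact le_rfl) (by
      intro p hp
      rcases p with ⟨p, b⟩
      have hne : p.1.1 ≠ p.1.2 := (Finset.mem_filter.1
        (Finset.mem_product.1 (Finset.mem_product.1 hp).1).1).2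
      cases b
      · simp only [f, c, Bool.false_eq_true, if_false]
        by_cases h : θ ≤ cd p.1
        · simp only [if_pos h]
          exact hgs p hne θ h 2 (by norm_num)
        · simp only [if_neg h, Finset.sum_const_zero]
          positivity
      · simp only [f, c, if_true]
        by_cases h : Λ ≤ cd p.1
        · simp only [if_pos h]
          exact hgs p hne Λ h (2 ^ θ) (by positivity)
        · simp only [if_neg h, Finset.sum_const_zero]
          positivity) (by
      rw [Finset.sum_product]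
      have h0 : ∀ p : (Fin a × Fin a) × (Fin Q × Fin Q), ∑ b : Bool, c (p, b) =
          2 ^ θ * x ^ Λ + 2 * x ^ θ := by
        intro p
        rw [Fintype.sum_bool]
        simp only [c, if_true, Bool.false_eq_true, if_false]
      rw [Finset.sum_congr rfl (fun p _ => h0 p), Finset.sum_const, nsmul_eq_mul]
      refine lt_of_le_of_lt ?_ hb
      have h1 : (Pr ×ˢ (univ : Finset (Fin Q × Fin Q))).card ≤ a ^ 2 * Q ^ 2 := by
        rw [Finset.card_product, Finset.card_univ, Fintype.card_prod, Fintype.card_fin]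
        have h2 : Pr.card ≤ a * a := by
          refine (Finset.card_le_univ _).trans ?_
          rw [Fintype.card_prod, Fintype.card_fin]
        calc Pr.card * (Q * Q) ≤ (a * a) * (Q * Q) := Nat.mul_le_mul_right _ h2
          _ = _ := by ring
      have h2 : ((Pr ×ˢ (univ : Finset (Fin Q × Fin Q))).card : ℝ) ≤
          (a : ℝ) ^ 2 * (Q : ℝ) ^ 2 := by exact_mod_cast h1
      have h3 : (0 : ℝ) ≤ 2 ^ θ * x ^ Λ + 2 * x ^ θ := by positivity
      calc _ ≤ (a : ℝ) ^ 2 * (Q : ℝ) ^ 2 * (2 ^ θ * x ^ Λ + 2 * x ^ θ) :=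
            mul_le_mul_of_nonneg_right h2 h3
        _ = _ := by ring)
  have hmem : ∀ (i j : Fin a) (k k' : Fin Q) (b : Bool), i ≠ j → (((i, j), (k, k')), b) ∈
      (Pr ×ˢ (univ : Finset (Fin Q × Fin Q))) ×ˢ (univ : Finset Bool) := by
    intro i j k k' b hij
    exact Finset.mem_product.2 ⟨Finset.mem_product.2
      ⟨Finset.mem_filter.2 ⟨Finset.mem_univ _, hij⟩, Finset.mem_univ _⟩, Finset.mem_univ _⟩
  refine ⟨fun i t => lb (φ i) (ω i) t, fun i k => hsize (ω i) i k, ?_, ?_⟩
  · intro i j hij hθ k k'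
    by_contra hno
    push Not at hno
    have h2 := hω (((i, j), (k, k')), false) (hmem i j k k' false hij)
    have h3 : f (((i, j), (k, k')), false) ω = 2 * g ((i, j), (k, k')) ω := by
      simp only [f, Bool.false_eq_true, if_false]
      exact if_pos hθ
    have h4 : g ((i, j), (k, k')) ω = 1 := by
      simp only [g]
      rw [hbad_eq]
      have h5 : (C i ∩ C j).filter (fun t => lb (φ i) (ω i) t = k ∧
          lb (φ j) (ω j) t = k') = ∅ := by
        apply Finset.filter_eq_empty_iff.2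
        intro t ht h6
        exact hno t ht h6.1 h6.2
      rw [h5, Finset.card_empty, pow_zero]
    rw [h3, h4] at h2
    linarith
  · intro i j hij hΛ k k'
    by_contra hno
    push Not at hno
    have h2 := hω (((i, j), (k, k')), true) (hmem i j k k' true hij)
    have h3 : f (((i, j), (k, k')), true) ω = 2 ^ θ * g ((i, j), (k, k')) ω := by
      simp only [f, if_true]
      exact if_pos hΛ
    have h4 : (1 / 2 : ℝ) ^ θ ≤ g ((i, j), (k, k')) ω := by
      simp only [g]
      rw [hbad_eq]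
      exact pow_le_pow_of_le_one (by norm_num) (by norm_num) hno.le
    have h6 : (2 : ℝ) ^ θ * (1 / 2) ^ θ = 1 := by
      rw [← mul_pow]
      norm_num
    have h7 : (2 : ℝ) ^ θ * (1 / 2) ^ θ ≤ 2 ^ θ * g ((i, j), (k, k')) ω :=
      mul_le_mul_of_nonneg_left h4 (by positivity)
    rw [h3] at h2
    linarith

end Vale.Agent.P181.T3
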