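import Vale.Agent.P181.T3.Kernel3
import Vale.Agent.P181.Q.Extend

/-!
P181, three rows, all `a`: row F (labelling with classes of arbitrary sizes).
-/

set_option autoImplicit false

namespace Vale.Agent.P181.T3

open Finset Vale.Agent.P181.H179 Vale.Agent.P181.Q

/-- Row F. -/
theorem kernel_sizes {a N Q w e θ Λ : ℕ} (C : Fin a → Finset (Fin N)) (sz : Fin Q → ℕ)
    (hQ : 1 ≤ Q) (hw : 1 ≤ w) (hsz : ∀ k, w ≤ sz k) (hC : ∀ i, (C i).card = ∑ k, sz k)
    (he : ∑ k, sz k ≤ Q * w + e)
    (hnum : (a : ℝ) ^ 2 * (Q : ℝ) ^ 2 * (2 * (1 - 1 / (2 * (Q : ℝ) ^ 2)) ^ θ) +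
      (a : ℝ) ^ 2 * (Q : ℝ) ^ 2 * (2 ^ (θ + 2 * e) * (1 - 1 / (2 * (Q : ℝ) ^ 2)) ^ Λ) < 1) :
    ∃ lab : Fin a → Fin N → Fin Q,
      (∀ i k, ((C i).filter (fun t => lab i t = k)).card = sz k) ∧
      (∀ i j, i ≠ j → θ + 2 * e ≤ (C i ∩ C j).card → ∀ k k', ∃ t ∈ C i ∩ C j,
        lab i t = k ∧ lab j t = k') ∧
      ∀ i j, i ≠ j → Λ + 2 * e ≤ (C i ∩ C j).card → ∀ k k',
        θ + 2 * e ≤ ((C i ∩ C j).filter (fun t => lab i t = k ∧ lab j t = k')).card := by
  classical
  have hle : ∀ i, Q * w ≤ (C i).card := by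
    intro i
    rw [hC i]
    calc Q * w = ∑ _k : Fin Q, w := by
          rw [Finset.sum_const, Finset.card_univ, Fintype.card_fin, smul_eq_mul]
      _ ≤ ∑ k, sz k := Finset.sum_le_sum (fun k _ => hsz k)
  choose C' hC'sub hC'card using fun i => Finset.exists_subset_card_eq (hle i)
  -- the intersections lose at most `2 e`
  have hint : ∀ i j, (C i ∩ C j).card ≤ (C' i ∩ C' j).card + 2 * e := by
    intro i j
    have h1 : C i ∩ C j ⊆ (C' i ∩ C' j) ∪ ((C i \ C' i) ∪ (C j \ C' j)) := by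
      intro t ht
      rw [Finset.mem_inter] at ht
      rw [Finset.mem_union, Finset.mem_union, Finset.mem_inter, Finset.mem_sdiff,
        Finset.mem_sdiff]
      by_cases h2 : t ∈ C' i
      · by_cases h3 : t ∈ C' j
        · exact Or.inl ⟨h2, h3⟩
        · exact Or.inr (Or.inr ⟨ht.2, h3⟩)
      · exact Or.inr (Or.inl ⟨ht.1, h2⟩)
    have h2 := Finset.card_le_card h1
    have h3 := Finset.card_union_le (C' i ∩ C' j) ((C i \ C' i) ∪ (C j \ C' j))
    have h4 := Finset.card_union_le (C i \ C' i) (C j \ C' j)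
    have h5 := Finset.card_sdiff_add_card_eq_card (hC'sub i)
    have h6 := Finset.card_sdiff_add_card_eq_card (hC'sub j)
    have h7 := hC i
    have h8 := hC j
    have h9 := hC'card i
    have h10 := hC'card j
    omega
  obtain ⟨lab', h1, h2⟩ := kernel_pairs C' hQ hw hC'card
    (univ : Finset Bool) (fun z i j => (if z then Λ else θ) ≤ (C' i ∩ C' j).card)
    (fun z => if z then θ + 2 * e else 1) (fun z => if z then Λ else θ)
    (fun z _ i j _ h => h) (by
      rw [Fintype.sum_bool]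
      simp only [if_true, Bool.false_eq_true, if_false, pow_one]
      rw [add_comm]
      exact hnum)
  have hext : ∀ i, ∃ f : Fin N → Fin Q, (∀ t ∈ C' i, f t = lab' i t) ∧
      ∀ φ, ((C i).filter (fun t => f t = φ)).card = sz φ := by
    intro i
    apply extend N Q (C i) (C' i) (lab' i) sz (hC'sub i)
    · intro φ
      rw [h1 i φ]
      exact hsz φ
    · exact (hC i).symm
  choose lab hlab1 hlab2 using hext
  refine ⟨lab, hlab2, ?_, ?_⟩
  · intro i j hij hc k k'
    have h3 := h2 false (Finset.mem_univ _) i j hij (by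
      have := hint i j
      simp only [Bool.false_eq_true, if_false]
      omega) k k'
    have h4 : 0 < ((C' i ∩ C' j).filter (fun t => lab' i t = k ∧ lab' j t = k')).card := by
      omega
    obtain ⟨t, ht⟩ := Finset.card_pos.1 h4
    rw [Finset.mem_filter, Finset.mem_inter] at ht
    refine ⟨t, Finset.mem_inter.2 ⟨hC'sub i ht.1.1, hC'sub j ht.1.2⟩, ?_, ?_⟩
    · rw [hlab1 i t ht.1.1]
      exact ht.2.1
    · rw [hlab1 j t ht.1.2]
      exact ht.2.2
  · intro i j hij hc k k'
    have h3 := h2 true (Finset.mem_univ _) i j hij (by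
      have := hint i j
      simp only [if_true]
      omega) k k'
    simp only [if_true] at h3
    refine h3.le.trans (Finset.card_le_card ?_)
    intro t ht
    rw [Finset.mem_filter, Finset.mem_inter] at ht
    rw [Finset.mem_filter, Finset.mem_inter]
    refine ⟨⟨hC'sub i ht.1.1, hC'sub j ht.1.2⟩, ?_, ?_⟩
    · rw [hlab1 i t ht.1.1]
      exact ht.2.1
    · rw [hlab1 j t ht.1.2]
      exact ht.2.2

end Vale.Agent.P181.T3
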