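import Vale.Agent.P181.T3.Kernel3
import Vale.Agent.P181.Q.Extend

/-!
P181, general number of rows: labelling with classes of arbitrary sizes and a finite family of
requirements.
-/

set_option autoImplicit false

namespace Vale.Agent.P181.T3

open Finset Vale.Agent.P181.H179 Vale.Agent.P181.Q

/-- Random block shifts with an individual requirement for every pair of rows, classes of
arbitrary sizes. -/
theorem kernel_pairs_sz {a N Q w e : ℕ} (C : Fin a → Finset (Fin N)) (sz : Fin Q → ℕ)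
    (hQ : 1 ≤ Q) (hw : 1 ≤ w) (hsz : ∀ k, w ≤ sz k) (hC : ∀ i, (C i).card = ∑ k, sz k)
    (he : ∑ k, sz k ≤ Q * w + e) {ι : Type} (I : Finset ι) (g : ι → Fin a → Fin a → Prop)
    (μ : ι → ℕ) (s : ι → ℕ)
    (hs : ∀ z ∈ I, ∀ i j, i ≠ j → g z i j → s z + 2 * e ≤ (C i ∩ C j).card)
    (hb : ∑ z ∈ I, (a : ℝ) ^ 2 * (Q : ℝ) ^ 2 * (2 ^ μ z *
      (1 - 1 / (2 * (Q : ℝ) ^ 2)) ^ s z) < 1) :
    ∃ lab : Fin a → Fin N → Fin Q,
      (∀ i k, ((C i).filter (fun t => lab i t = k)).card = sz k) ∧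
      ∀ z ∈ I, ∀ i j, i ≠ j → g z i j → ∀ k k',
        μ z < ((C i ∩ C j).filter (fun t => lab i t = k ∧ lab j t = k')).card := by
  classical
  have hle : ∀ i, Q * w ≤ (C i).card := by
    intro i
    rw [hC i]
    calc Q * w = ∑ _k : Fin Q, w := by
          rw [Finset.sum_const, Finset.card_univ, Fintype.card_fin, smul_eq_mul]
      _ ≤ ∑ k, sz k := Finset.sum_le_sum (fun k _ => hsz k)
  choose C' hC'sub hC'card using fun i => Finset.exists_subset_card_eq (hle i)
  have hint : ∀ i j, (C i ∩ C j).card ≤ (C' i ∩ C' j).card + 2 * e := by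
    intro i j
    have h1 : C i ∩ C j ⊆ (C' i ∩ C' j) ∪ ((C i \ C' i) ∪ (C j \ C' j)) := by
      intro t ht
      rw [Finset.mem_inter] at ht
      rw [Finset.mem_union, Finset.mem_union, Finset.mem_inter, Finset.mem_sdiff,
        Finset.mem_sdiff]
      by_cases h2 : t ∈ C' i
      · by_cases h3 : t ∈ C' j
        · exact Or.inl ⟨h2, h3⟩
        · exact Or.inr (Or.inr ⟨ht.2, h3⟩)
      · exact Or.inr (Or.inl ⟨ht.1, h2⟩)
    have h2 := Finset.card_le_card h1
    have h3 := Finset.card_union_le (C' i ∩ C' j) ((C i \ C' i) ∪ (C j \ C' j))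
    have h4 := Finset.card_union_le (C i \ C' i) (C j \ C' j)
    have h5 := Finset.card_sdiff_add_card_eq_card (hC'sub i)
    have h6 := Finset.card_sdiff_add_card_eq_card (hC'sub j)
    have h7 := hC i
    have h8 := hC j
    have h9 := hC'card i
    have h10 := hC'card j
    omega
  obtain ⟨lab', h1, h2⟩ := kernel_pairs C' hQ hw hC'card I g μ s (fun z hz i j hij hg => by
    have h3 := hs z hz i j hij hg
    have h4 := hint i j
    omega) hb
  have hext : ∀ i, ∃ f : Fin N → Fin Q, (∀ t ∈ C' i, f t = lab' i t) ∧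
      ∀ φ, ((C i).filter (fun t => f t = φ)).card = sz φ := by
    intro i
    apply extend N Q (C i) (C' i) (lab' i) sz (hC'sub i)
    · intro φ
      rw [h1 i φ]
      exact hsz φ
    · exact (hC i).symm
  choose lab hlab1 hlab2 using hext
  refine ⟨lab, hlab2, ?_⟩
  intro z hz i j hij hg k k'
  refine (h2 z hz i j hij hg k k').trans_le (Finset.card_le_card ?_)
  intro t ht
  rw [Finset.mem_filter, Finset.mem_inter] at ht
  rw [Finset.mem_filter, Finset.mem_inter]
  refine ⟨⟨hC'sub i ht.1.1, hC'sub j ht.1.2⟩, ?_, ?_⟩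
  · rw [hlab1 i t ht.1.1]
    exact ht.2.1
  · rw [hlab1 j t ht.1.2]
    exact ht.2.2

end Vale.Agent.P181.T3
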