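import Vale.Agent.P181.H89.TopS
import Vale.Agent.P181.H626.Explicit

/-!
P181, power map theorem for `b = q a` and first row at most `(s + 1) b - M`, explicit and uniform:
`M ≥ (200 s^6 q^4)^s log a`.
-/

set_option autoImplicit false

open scoped TensorProduct

namespace Vale.Agent.P181.H626

open Vale.Agent.P181 Vale.Agent.P181.H280 Vale.Agent.P181.H179 Vale.Agent.P181.T3
  Vale.Agent.P181.H89 Finset

variable {n : ℕ}

/-- The power map is injective on the highest weight vectors with first row at most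
`(s + 1) q a - M`, or with `a - s + 1` rows of length at least `M`. -/
theorem powMap_expl {s q a M : ℕ} (hs : 2 ≤ s) (hq : 1 ≤ q) (ha : 16 * s ^ 4 * q ^ 2 ≤ a)
    (hM : (200 * (s : ℝ) ^ 6 * (q : ℝ) ^ 4) ^ s * Real.log a ≤ M) (lam : Fin (n + 1) → ℕ)
    (hlam : (∀ m, lam m + M ≤ (s + 1) * (q * a)) ∨
      (a ≤ n + s ∧ ∀ m : Fin (n + 1), (m : ℕ) + s ≤ a → M ≤ lam m))
    (x : Sym[ℂ]^a (Sym[ℂ]^(q * a) (Fin (n + 1) → ℂ)))
    (hx : x ∈ hwSpace lam (plethAct a (q * a) (n + 1)))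
    (hx0 : powMap a q (Fin (n + 1) → ℂ) x = 0) : x = 0 := by
  classical
  obtain ⟨g, g', w, e, A, L, θ, hag, hw, hg, hg', he, hgr, hθA, hnum, hX⟩ :=
    constE hs hq ha hM
  obtain ⟨k, hk⟩ : ∃ k, k = kk s q := ⟨_, rfl⟩
  rw [← hk] at hag he hnum
  have hk1 : 1 ≤ k := by
    rw [hk, kk]
    exact Nat.mul_pos (Nat.mul_pos (by omega) (by omega)) (by omega)
  have hkq : s * (s - 1) * (q + 1) ≤ k := by
    rw [hk, kk]
  have hQ1 : 1 ≤ q * (2 * k + 1) := Nat.mul_pos hq (by omega)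
  have has : s + 1 ≤ a := by
    refine le_trans ?_ ha
    have h1 : 1 ≤ q ^ 2 := Nat.one_le_pow _ _ hq
    have h2 : s ≤ s ^ 4 := Nat.le_self_pow (by norm_num) s
    calc s + 1 ≤ 16 * s ^ 4 := by omega
      _ = 16 * s ^ 4 * 1 := by ring
      _ ≤ _ := Nat.mul_le_mul_left _ h1
  refine injS (s := s) (w := w) (e := e) (A := A) (L := L) (X := M)
    (tyS k q) (cS k) (gS g g') θ hs has hQ1 ⟨true, by rw [cS, if_pos rfl]; exact hk1⟩
    (card_tyS k q) (by rw [cS, cS, gS, gS, if_pos rfl, if_pos rfl, if_neg Bool.false_ne_true,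
      if_neg Bool.false_ne_true]; exact hag) hw (fun κ => by
      rw [gS]
      split_ifs
      · exact hg
      · exact hg') he (hθA 2) hgr hnum
    (fun s' h1 h2 => pmAll s q hq s' (cS k) h1 h2 (fun z => by
      rw [cS]
      split_ifs
      · exact hkq
      · omega)) hX lam ?_ x hx hx0
  rcases hlam with h | ⟨han, h⟩
  · left
    have h0 := h 0
    refine ⟨(s + 1) * (q * a) - M, fun m => ?_, ?_⟩
    · have := h m
      omega
    · omega
  · right
    exact ⟨by omega, h⟩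

/-- Multiplicities. -/
theorem mult_expl {s q a M : ℕ} (hs : 2 ≤ s) (hq : 1 ≤ q) (ha : 16 * s ^ 4 * q ^ 2 ≤ a)
    (hM : (200 * (s : ℝ) ^ 6 * (q : ℝ) ^ 4) ^ s * Real.log a ≤ M) (lam : Fin (n + 1) → ℕ)
    (hlam : (∀ m, lam m + M ≤ (s + 1) * (q * a)) ∨
      (a ≤ n + s ∧ ∀ m : Fin (n + 1), (m : ℕ) + s ≤ a → M ≤ lam m)) :
    plethMult a (q * a) (n + 1) lam ≤ plethMult (q * a) a (n + 1) lam :=
  finrank_le_of_inj (powMap a q (Fin (n + 1) → ℂ)) _ _
    (fun x hx => powMap_hwSpace lam x hx)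
    (fun x hx h0 => powMap_expl hs hq ha hM lam hlam x hx h0)

/-- Propagation in `b`. -/
theorem prop_expl {s q a M : ℕ} (hs : 2 ≤ s) (hq : 1 ≤ q) (ha : 16 * s ^ 4 * q ^ 2 ≤ a)
    (hM : (200 * (s : ℝ) ^ 6 * (q : ℝ) ^ 4) ^ s * Real.log a ≤ M) (k : ℕ)
    (lam : Fin (n + 1) → ℕ) (hlam : ∀ i, i ≠ 0 → lam i ≤ q * a)
    (h0 : (lam 0 + M ≤ (s + 1) * (q * a) + a * k ∧ ∀ i, i ≠ 0 → lam i + M ≤ (s + 1) * (q * a)) ∨
        (a ≤ n + s ∧ a * k + M ≤ lam 0 ∧
          ∀ i : Fin (n + 1), i ≠ 0 → (i : ℕ) + s ≤ a → M ≤ lam i)) :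
    plethMult a (q * a + k) (n + 1) lam ≤ plethMult (q * a + k) a (n + 1) lam := by
  apply reduction a (q * a) k lam hlam
  intro c hc
  apply mult_expl hs hq ha hM
  rcases h0 with ⟨h0, h1⟩ | ⟨han, h0, h1⟩
  · left
    intro m
    by_cases hm : m = 0
    · subst hm
      rw [Function.update_self]
      omega
    · rw [Function.update_of_ne hm]
      exact h1 m hm
  · right
    refine ⟨han, fun m hma => ?_⟩
    by_cases hm : m = 0
    · subst hm
      rw [Function.update_self]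
      omega
    · rw [Function.update_of_ne hm]
      exact h1 m hm hma

end Vale.Agent.P181.H626
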