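import Vale.Agent.P181.H626.Top23
import Vale.Agent.P181.H626.TopE

/-!
P181, power map theorem for every number of rows: both forms of the constants together.
-/

set_option autoImplicit false

open scoped TensorProduct

namespace Vale.Agent.P181.H626

open Vale.Agent.P181 Vale.Agent.P181.H280 Vale.Agent.P181.H179

variable {n : ℕ}

theorem gen_main {s q a M : ℕ} (hs : 2 ≤ s) (hq : 1 ≤ q)
    (hM : (16 * s ^ 4 * q ^ 2 ≤ a ∧ (200 * (s : ℝ) ^ 6 * (q : ℝ) ^ 4) ^ s * Real.log a ≤ M) ∨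
      (s = 2 ∧ 7 ≤ a ∧ 8000 * (q : ℝ) ^ 4 * Real.log (10 * a * q) ≤ M))
    (lam : Fin (n + 1) → ℕ)
    (hlam : (∀ m, lam m + M ≤ (s + 1) * (q * a)) ∨
      (a ≤ n + s ∧ ∀ m : Fin (n + 1), (m : ℕ) + s ≤ a → M ≤ lam m)) :
    InjOnHW (powMap a q (Fin (n + 1) → ℂ)) lam ∧
      plethMult a (q * a) (n + 1) lam ≤ plethMult (q * a) a (n + 1) lam := by
  rcases hM with ⟨ha, hM⟩ | ⟨rfl, ha, hM⟩
  · exact ⟨fun x hx h0 => powMap_expl hs hq ha hM lam hlam x hx h0,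
      mult_expl hs hq ha hM lam hlam⟩
  · have hlam' : (∀ m, lam m + M ≤ 3 * (q * a)) ∨
        (a ≤ n + 2 ∧ ∀ m : Fin (n + 1), (m : ℕ) + 1 < a → M ≤ lam m) := by
      rcases hlam with h | ⟨h1, h2⟩
      · exact Or.inl h
      · exact Or.inr ⟨h1, fun m hm => h2 m (by omega)⟩
    exact ⟨fun x hx h0 => T3.powMap_three ha hq hM lam hlam' x hx h0,
      T3.three ha hq hM lam hlam'⟩

theorem gen_prop {s q a M : ℕ} (hs : 2 ≤ s) (hq : 1 ≤ q)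
    (hM : (16 * s ^ 4 * q ^ 2 ≤ a ∧ (200 * (s : ℝ) ^ 6 * (q : ℝ) ^ 4) ^ s * Real.log a ≤ M) ∨
      (s = 2 ∧ 7 ≤ a ∧ 8000 * (q : ℝ) ^ 4 * Real.log (10 * a * q) ≤ M)) (k : ℕ)
    (lam : Fin (n + 1) → ℕ) (hlam : ∀ i, i ≠ 0 → lam i ≤ q * a)
    (h0 : (lam 0 + M ≤ (s + 1) * (q * a) + a * k ∧ ∀ i, i ≠ 0 → lam i + M ≤ (s + 1) * (q * a)) ∨
        (a ≤ n + s ∧ a * k + M ≤ lam 0 ∧
          ∀ i : Fin (n + 1), i ≠ 0 → (i : ℕ) + s ≤ a → M ≤ lam i)) :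
    plethMult a (q * a + k) (n + 1) lam ≤ plethMult (q * a + k) a (n + 1) lam := by
  rcases hM with ⟨ha, hM⟩ | ⟨rfl, ha, hM⟩
  · exact prop_expl hs hq ha hM k lam hlam h0
  · refine T3.three_prop ha hq hM k lam hlam ?_
    rcases h0 with h | ⟨h1, h2, h3⟩
    · exact Or.inl h
    · exact Or.inr ⟨h1, h2, fun m hm0 hm => h3 m hm0 (by omega)⟩

end Vale.Agent.P181.H626
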