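import Vale.Agent.P181.H626.TopG
import Vale.Agent.P181.H626.TopK
import Vale.Agent.P181.H676.Rate
import Vale.Agent.P181.H676.Num15

/-!
P181, power map theorem for every number of rows: all forms of the constants together, and the
proportion of the partitions which are covered.
-/

set_option autoImplicit false

open scoped TensorProduct

namespace Vale.Agent.P181.H626

open Vale.Agent.P181 Vale.Agent.P181.H280 Vale.Agent.P181.H179 Vale.Agent.P181.H676 Filter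

variable {n : ℕ}

theorem all_main {s q a M : ℕ} (hs : 2 ≤ s) (hq : 1 ≤ q)
    (hM : (25 * s ^ 4 * q ^ 2 ≤ a ∧
        (10 : ℝ) ^ 6 * (s : ℝ) ^ 14 * (q : ℝ) ^ 9 * a * Real.log a ≤ (M : ℝ) ^ 2) ∨
      (16 * s ^ 4 * q ^ 2 ≤ a ∧ (200 * (s : ℝ) ^ 6 * (q : ℝ) ^ 4) ^ s * Real.log a ≤ M) ∨
      (s = 2 ∧ 7 ≤ a ∧ 8000 * (q : ℝ) ^ 4 * Real.log (10 * a * q) ≤ M))
    (lam : Fin (n + 1) → ℕ)
    (hlam : (∀ m, lam m + M ≤ (s + 1) * (q * a)) ∨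
      (a ≤ n + s ∧ ∀ m : Fin (n + 1), (m : ℕ) + s ≤ a → M ≤ lam m)) :
    InjOnHW (powMap a q (Fin (n + 1) → ℂ)) lam ∧
      plethMult a (q * a) (n + 1) lam ≤ plethMult (q * a) a (n + 1) lam := by
  rcases hM with ⟨ha, hM⟩ | hM
  · have hlam' : (∀ m, lam m + M ≤ (s + 1) * (q * a)) ∨
        (a + 1 ≤ n + 1 + s ∧ ∀ m : Fin (n + 1), (m : ℕ) + s ≤ a → M ≤ lam m) := by
      rcases hlam with h | ⟨h1, h2⟩
      · exact Or.inl h
      · exact Or.inr ⟨by omega, h2⟩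
    exact ⟨fun x hx h0 => powMapK hs hq (by omega) ha hM lam hlam' x hx h0,
      multK hs hq (by omega) ha hM lam hlam'⟩
  · exact gen_main hs hq hM lam hlam

theorem all_prop {s q a M : ℕ} (hs : 2 ≤ s) (hq : 1 ≤ q)
    (hM : (25 * s ^ 4 * q ^ 2 ≤ a ∧
        (10 : ℝ) ^ 6 * (s : ℝ) ^ 14 * (q : ℝ) ^ 9 * a * Real.log a ≤ (M : ℝ) ^ 2) ∨
      (16 * s ^ 4 * q ^ 2 ≤ a ∧ (200 * (s : ℝ) ^ 6 * (q : ℝ) ^ 4) ^ s * Real.log a ≤ M) ∨
      (s = 2 ∧ 7 ≤ a ∧ 8000 * (q : ℝ) ^ 4 * Real.log (10 * a * q) ≤ M)) (k : ℕ)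
    (lam : Fin (n + 1) → ℕ) (hlam : ∀ i, i ≠ 0 → lam i ≤ q * a)
    (h0 : (lam 0 + M ≤ (s + 1) * (q * a) + a * k ∧ ∀ i, i ≠ 0 → lam i + M ≤ (s + 1) * (q * a)) ∨
        (a ≤ n + s ∧ a * k + M ≤ lam 0 ∧
          ∀ i : Fin (n + 1), i ≠ 0 → (i : ℕ) + s ≤ a → M ≤ lam i)) :
    plethMult a (q * a + k) (n + 1) lam ≤ plethMult (q * a + k) a (n + 1) lam := by
  rcases hM with ⟨ha, hM⟩ | hM
  · exact propK hs hq ha hM lam hlam h0
  · exact gen_prop hs hq hM k lam hlam h0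

/-- The partitions of `N` with at most `a` parts. -/
lemma coe_Lam (a N : ℕ) : {lam : Fin a → ℕ | Antitone lam ∧ ∑ i, lam i = N} =
    ((Lam a N : Finset (Fin a → ℕ)) : Set (Fin a → ℕ)) := by
  ext lam
  rw [Set.mem_setOf_eq, Finset.mem_coe, mem_Lam]

/-- All but a small proportion of the partitions. -/
theorem almost_count {s q a : ℕ} (hs : 2 ≤ s) (hq : 1 ≤ q) (ha : 25 * s ^ 4 * q ^ 2 ≤ a)
    (hX : (10 : ℝ) ^ 6 * (s : ℝ) ^ 14 * (q : ℝ) ^ 9 * a * Real.log a ≤ ((q * a : ℕ) : ℝ) ^ 2) :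
    {lam : Fin a → ℕ | Antitone lam ∧ ∑ i, lam i = a * (q * a) ∧
      ¬ (InjOnHW (powMap a q (Fin a → ℂ)) lam ∧
        plethMult a (q * a) a lam ≤ plethMult (q * a) a a lam)}.ncard * 2 ^ (s / 4) ≤
      (a * (q * a) + 1) *
        {lam : Fin a → ℕ | Antitone lam ∧ ∑ i, lam i = a * (q * a)}.ncard := by
  classical
  have ha1 : 1 ≤ a := by
    have h1 : 1 ≤ 25 * s ^ 4 * q ^ 2 :=
      Nat.mul_pos (Nat.mul_pos (by norm_num) (pow_pos (by omega) 4)) (pow_pos (by omega) 2)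
    omega
  have hb : 1 ≤ q * a := Nat.mul_pos hq ha1
  have hab : a ≤ 4 * (q * a) := by
    have h1 : 1 * a ≤ q * a := Nat.mul_le_mul_right a hq
    omega
  have h1 := bad_le (a := a) (b := q * a) (s := s) hb hab
  have h2 : {lam : Fin a → ℕ | Antitone lam ∧ ∑ i, lam i = a * (q * a) ∧
      ¬ (InjOnHW (powMap a q (Fin a → ℂ)) lam ∧
        plethMult a (q * a) a lam ≤ plethMult (q * a) a a lam)} ⊆
      (((Lam a (a * (q * a))).filter fun l => ¬ ∀ i, l i ≤ s * (q * a) :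
        Finset (Fin a → ℕ)) : Set (Fin a → ℕ)) := by
    rintro lam ⟨h3, h4, h5⟩
    rw [Finset.mem_coe, Finset.mem_filter, mem_Lam]
    refine ⟨⟨h3, h4⟩, fun h6 => h5 ?_⟩
    have h7 : (∀ m, lam m + q * a ≤ (s + 1) * (q * a)) ∨
        (a + 1 ≤ a + s ∧ ∀ m : Fin a, (m : ℕ) + s ≤ a → q * a ≤ lam m) := by
      left
      intro m
      have := h6 m
      calc lam m + q * a ≤ s * (q * a) + q * a := Nat.add_le_add_right this _
        _ = (s + 1) * (q * a) := by ring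
    exact ⟨fun x hx h0 => powMapK hs hq ha1 ha hX lam h7 x hx h0,
      multK hs hq ha1 ha hX lam h7⟩
  have h3 := Set.ncard_le_ncard h2 (Finset.finite_toSet _)
  rw [Set.ncard_coe_finset] at h3
  rw [coe_Lam, Set.ncard_coe_finset]
  exact (Nat.mul_le_mul_right _ h3).trans h1

/-- **All but a proportion `(q a ^ 2 + 1) / 2 ^ (s / 4)` of the partitions.** -/
theorem almost_expl {s q a : ℕ} (hs : 2 ≤ s) (hq : 1 ≤ q) (ha : 3 ≤ a)
    (h : (10 : ℝ) ^ 6 * (s : ℝ) ^ 14 * (q : ℝ) ^ 7 * Real.log a ≤ a) :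
    {lam : Fin a → ℕ | Antitone lam ∧ ∑ i, lam i = a * (q * a) ∧
      ¬ (InjOnHW (powMap a q (Fin a → ℂ)) lam ∧
        plethMult a (q * a) a lam ≤ plethMult (q * a) a a lam)}.ncard * 2 ^ (s / 4) ≤
      (a * (q * a) + 1) *
        {lam : Fin a → ℕ | Antitone lam ∧ ∑ i, lam i = a * (q * a)}.ncard := by
  have haR : (3 : ℝ) ≤ a := by exact_mod_cast ha
  have hsR : (2 : ℝ) ≤ s := by exact_mod_cast hs
  have hqR : (1 : ℝ) ≤ q := by exact_mod_cast hq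
  have hlog : 1 ≤ Real.log a := by
    rw [Real.le_log_iff_exp_le (by linarith)]
    have := Real.exp_one_lt_d9
    linarith
  apply almost_count hs hq
  · have h1 : (s : ℝ) ^ 4 ≤ (s : ℝ) ^ 14 := pow_le_pow_right₀ (by linarith) (by norm_num)
    have h2 : (q : ℝ) ^ 2 ≤ (q : ℝ) ^ 7 := pow_le_pow_right₀ hqR (by norm_num)
    have h3 : (s : ℝ) ^ 4 * (q : ℝ) ^ 2 ≤ (s : ℝ) ^ 14 * (q : ℝ) ^ 7 :=
      mul_le_mul h1 h2 (by positivity) (by positivity)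
    have h4 : (10 : ℝ) ^ 6 * (s : ℝ) ^ 14 * (q : ℝ) ^ 7 * 1 ≤
        (10 : ℝ) ^ 6 * (s : ℝ) ^ 14 * (q : ℝ) ^ 7 * Real.log a :=
      mul_le_mul_of_nonneg_left hlog (by positivity)
    have h5 : 0 ≤ (s : ℝ) ^ 4 * (q : ℝ) ^ 2 := by positivity
    have h6 : ((25 * s ^ 4 * q ^ 2 : ℕ) : ℝ) ≤ a := by
      push_cast
      nlinarith
    exact_mod_cast h6
  · calc (10 : ℝ) ^ 6 * (s : ℝ) ^ 14 * (q : ℝ) ^ 9 * a * Real.log a =
        ((10 : ℝ) ^ 6 * (s : ℝ) ^ 14 * (q : ℝ) ^ 7 * Real.log a) * ((q : ℝ) ^ 2 * a) := by ring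
      _ ≤ a * ((q : ℝ) ^ 2 * a) := mul_le_mul_of_nonneg_right h (by positivity)
      _ = _ := by
        push_cast
        ring

/-- **Almost all partitions.** -/
theorem almost_all {q : ℕ} (hq : 1 ≤ q) : ∀ᶠ a : ℕ in atTop,
    ({lam : Fin a → ℕ | Antitone lam ∧ ∑ i, lam i = a * (q * a) ∧
      ¬ (InjOnHW (powMap a q (Fin a → ℂ)) lam ∧
        plethMult a (q * a) a lam ≤ plethMult (q * a) a a lam)}.ncard : ℝ) ≤
      Real.exp (-(a : ℝ) ^ ((1 : ℝ) / 15)) *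
        ({lam : Fin a → ℕ | Antitone lam ∧ ∑ i, lam i = a * (q * a)}.ncard : ℝ) := by
  filter_upwards [num15 q hq] with a ha
  obtain ⟨s, hs, h1, h2, h3⟩ := ha
  have h4 := almost_count hs hq h1 h2
  obtain ⟨B, hB⟩ : ∃ B, B = {lam : Fin a → ℕ | Antitone lam ∧ ∑ i, lam i = a * (q * a) ∧
      ¬ (InjOnHW (powMap a q (Fin a → ℂ)) lam ∧
        plethMult a (q * a) a lam ≤ plethMult (q * a) a a lam)}.ncard := ⟨_, rfl⟩
  obtain ⟨A, hA⟩ : ∃ A, A = {lam : Fin a → ℕ | Antitone lam ∧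
      ∑ i, lam i = a * (q * a)}.ncard := ⟨_, rfl⟩
  rw [← hB, ← hA] at h4
  rw [← hB, ← hA]
  have h5 : (B : ℝ) * 2 ^ (s / 4) ≤ ((a * (q * a) + 1 : ℕ) : ℝ) * A := by exact_mod_cast h4
  have hN : (0 : ℝ) < ((a * (q * a) + 1 : ℕ) : ℝ) := by positivity
  have hE : 0 < Real.exp ((a : ℝ) ^ ((1 : ℝ) / 15)) := Real.exp_pos _
  have h6 : (B : ℝ) * (((a * (q * a) + 1 : ℕ) : ℝ) * Real.exp ((a : ℝ) ^ ((1 : ℝ) / 15))) ≤
      (B : ℝ) * 2 ^ (s / 4) := mul_le_mul_of_nonneg_left h3 (Nat.cast_nonneg _)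
  have h7 : ((a * (q * a) + 1 : ℕ) : ℝ) * ((B : ℝ) * Real.exp ((a : ℝ) ^ ((1 : ℝ) / 15))) ≤
      ((a * (q * a) + 1 : ℕ) : ℝ) * A := by
    refine le_trans (le_of_eq ?_) (h6.trans h5)
    ring
  have h8 := le_of_mul_le_mul_left h7 hN
  rw [Real.exp_neg, inv_mul_eq_div, le_div_iff₀ hE]
  exact h8

end Vale.Agent.P181.H626
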